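import Mathlib

/-!
Areas (Euclidean Hausdorff measure `μHE[2]`) of affine images of planar sets in a real inner
product space: parallelograms, triangles.
-/

set_option autoImplicit false

open MeasureTheory Set
open scoped ENNReal

noncomputable section

namespace Crest.Agent.Lib.Tet

variable {X : Type*} [NormedAddCommGroup X] [InnerProductSpace ℝ X] [MeasurableSpace X]
  [BorelSpace X]

/-- The Gram determinant of two vectors. -/
def gram (u v : X) : ℝ := ‖u‖ ^ 2 * ‖v‖ ^ 2 - (inner ℝ u v) ^ 2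

omit [MeasurableSpace X] [BorelSpace X] in
lemma gram_nonneg (u v : X) : 0 ≤ gram u v := by
  unfold gram
  have h := abs_real_inner_le_norm u v
  have h2 : (inner ℝ u v : ℝ) ^ 2 ≤ (‖u‖ * ‖v‖) ^ 2 := by
    rw [← sq_abs (inner ℝ u v : ℝ)]
    exact pow_le_pow_left₀ (abs_nonneg _) h 2
  nlinarith

/-- The planar linear isometry attached to an orthonormal pair. -/
def pairMap (e₁ e₂ : X) (s : EuclideanSpace ℝ (Fin 2)) : X := s 0 • e₁ + s 1 • e₂

omit [MeasurableSpace X] [BorelSpace X] in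
lemma pairMap_isometry (e₁ e₂ : X) (h₁ : ‖e₁‖ = 1) (h₂ : ‖e₂‖ = 1) (h₁₂ : inner ℝ e₁ e₂ = (0 : ℝ)) :
    Isometry (pairMap e₁ e₂) := by
  refine Isometry.of_dist_eq fun s t => ?_
  rw [dist_eq_norm, dist_eq_norm]
  have key : pairMap e₁ e₂ s - pairMap e₁ e₂ t = (s - t) 0 • e₁ + (s - t) 1 • e₂ := by
    simp [pairMap, sub_smul]
    abel
  rw [key]
  have h₃ : ‖(s - t) 0 • e₁ + (s - t) 1 • e₂‖ ^ 2 = ‖s - t‖ ^ 2 := by
    rw [@norm_add_sq_real, norm_smul, norm_smul, inner_smul_left, inner_smul_right, h₁₂, h₁, h₂,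
      EuclideanSpace.norm_sq_eq, Fin.sum_univ_two]
    simp
  exact (pow_left_inj₀ (norm_nonneg _) (norm_nonneg _) (by norm_num)).1 h₃

/-- **Area of an affine image.** For independent `u, v`, the image of `S ⊆ ℝ²` under
`s ↦ c + s₀ u + s₁ v` has area `√(gram u v) · vol S`. -/
theorem area_affine_image (c u v : X) (hg : 0 < gram u v) (S : Set (Fin 2 → ℝ)) :
    μHE[2] ((fun s : Fin 2 → ℝ => c + s 0 • u + s 1 • v) '' S) =
      ENNReal.ofReal (Real.sqrt (gram u v)) * volume S := by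
  classical
  have hu : 0 < ‖u‖ := by
    rcases eq_or_ne u 0 with rfl | h
    · simp [gram] at hg
    · exact norm_pos_iff.2 h
  set e₁ : X := ‖u‖⁻¹ • u with he₁
  have he₁n : ‖e₁‖ = 1 := by
    rw [he₁, norm_smul, norm_inv, norm_norm]; field_simp
  set α : ℝ := inner ℝ v e₁ with hα
  set w : X := v - α • e₁ with hw
  have hwe : inner ℝ e₁ w = (0 : ℝ) := by
    rw [hw, inner_sub_right, inner_smul_right, real_inner_self_eq_norm_sq, he₁n, hα,
      real_inner_comm]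
    ring
  have huα : ‖u‖ * α = inner ℝ u v := by
    rw [hα, he₁, inner_smul_right, real_inner_comm]
    field_simp
  have hwn : ‖w‖ ^ 2 * ‖u‖ ^ 2 = gram u v := by
    have h1 : ‖w‖ ^ 2 = ‖v‖ ^ 2 - α ^ 2 := by
      have h3 : (inner ℝ v e₁ : ℝ) = α := rfl
      rw [hw, @norm_sub_sq_real, norm_smul, he₁n, inner_smul_right, h3,
        Real.norm_eq_abs, mul_one, sq_abs]
      ring
    rw [h1, gram, ← huα]
    ring
  have hwpos : 0 < ‖w‖ := by
    have : 0 < ‖w‖ ^ 2 * ‖u‖ ^ 2 := by rw [hwn]; exact hg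
    have h2 : 0 < ‖w‖ ^ 2 := by
      by_contra hcon
      have : ‖w‖ ^ 2 = 0 := le_antisymm (not_lt.1 hcon) (sq_nonneg _)
      simp_all
    rcases (norm_nonneg w).lt_or_eq with h | h
    · exact h
    · rw [← h] at h2; norm_num at h2
  set e₂ : X := ‖w‖⁻¹ • w with he₂
  have he₂n : ‖e₂‖ = 1 := by
    rw [he₂, norm_smul, norm_inv, norm_norm]; field_simp
  have he₁₂ : inner ℝ e₁ e₂ = (0 : ℝ) := by
    rw [he₂, inner_smul_right, hwe]; simp
  have hiso := pairMap_isometry e₁ e₂ he₁n he₂n he₁₂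
  -- the matrix of `s ↦ s₀ u + s₁ v` in the frame `e₁, e₂`
  let M : Matrix (Fin 2) (Fin 2) ℝ := !![‖u‖, α; 0, ‖w‖]
  let T : (Fin 2 → ℝ) →ₗ[ℝ] (Fin 2 → ℝ) := Matrix.toLin' M
  have hT : ∀ s : Fin 2 → ℝ, c + s 0 • u + s 1 • v =
      c + pairMap e₁ e₂ (WithLp.toLp 2 (T s)) := by
    intro s
    have hu' : u = ‖u‖ • e₁ := by
      rw [he₁, smul_smul]; field_simp; simp
    have hv' : v = α • e₁ + ‖w‖ • e₂ := by
      have : ‖w‖ • e₂ = w := by
        rw [he₂, smul_smul]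
        have : ‖w‖ * ‖w‖⁻¹ = 1 := by field_simp
        rw [this, one_smul]
      rw [this, hw]; abel
    have h0 : T s 0 = ‖u‖ * s 0 + α * s 1 := by
      simp [T, M, Matrix.toLin'_apply, Matrix.mulVec, dotProduct, Fin.sum_univ_two]
    have h1 : T s 1 = ‖w‖ * s 1 := by
      simp [T, M, Matrix.toLin'_apply, Matrix.mulVec, dotProduct, Fin.sum_univ_two]
    simp only [pairMap]
    rw [add_assoc]
    congr 1
    rw [h0, h1]
    conv_lhs => rw [hv']; enter [1]; rw [hu']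
    simp only [smul_add, add_smul, smul_smul]
    have : s 0 * ‖u‖ = ‖u‖ * s 0 := mul_comm _ _
    rw [this]
    have : s 1 * α = α * s 1 := mul_comm _ _
    rw [this]
    have : s 1 * ‖w‖ = ‖w‖ * s 1 := mul_comm _ _
    rw [this]
    abel
  have himg : (fun s : Fin 2 → ℝ => c + s 0 • u + s 1 • v) '' S =
      (fun x : X => c + x) '' (pairMap e₁ e₂ '' (WithLp.toLp 2 '' (T '' S))) := by
    ext y
    simp only [mem_image, exists_exists_and_eq_and]
    constructor
    · rintro ⟨s, hs, rfl⟩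
      exact ⟨s, hs, (hT s).symm⟩
    · rintro ⟨s, hs, rfl⟩
      exact ⟨s, hs, hT s⟩
  have htrans : Isometry (fun x : X => c + x) := (IsometryEquiv.addLeft c).isometry
  rw [himg, htrans.euclideanHausdorffMeasure_image, hiso.euclideanHausdorffMeasure_image,
    EuclideanSpace.euclideanHausdorffMeasure_eq_volume]
  have hvol : volume ((WithLp.toLp 2 : (Fin 2 → ℝ) → EuclideanSpace ℝ (Fin 2)) '' (T '' S)) =
      volume (T '' S) := by
    have h2 := (EuclideanSpace.volume_preserving_symm_measurableEquiv_toLp (Fin 2)).measure_preimage_equiv (T '' S)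
    rw [← h2]
    congr 1
    ext y
    simp only [mem_image, mem_preimage]
    constructor
    · rintro ⟨x, hx, rfl⟩
      simpa using hx
    · intro hy
      exact ⟨_, hy, rfl⟩
  rw [hvol, Measure.addHaar_image_linearMap]
  congr 2
  have hdet : LinearMap.det T = ‖u‖ * ‖w‖ := by
    simp [T, M, LinearMap.det_toLin', Matrix.det_fin_two_of]
  rw [hdet, abs_of_pos (mul_pos hu hwpos), ← hwn]
  rw [show ‖w‖ ^ 2 * ‖u‖ ^ 2 = (‖u‖ * ‖w‖) ^ 2 by ring, Real.sqrt_sq (by positivity)]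

/-- The standard planar simplex. -/
def stdTri : Set (Fin 2 → ℝ) := {s | 0 ≤ s 0 ∧ 0 ≤ s 1 ∧ s 0 + s 1 ≤ 1}

lemma volume_stdTri : volume stdTri = ENNReal.ofReal (1 / 2) := by
  have h := (MeasureTheory.volume_preserving_finTwoArrow ℝ).measure_preimage_equiv
    {q : ℝ × ℝ | 0 ≤ q.1 ∧ 0 ≤ q.2 ∧ q.1 + q.2 ≤ 1}
  have h1 : (MeasurableEquiv.finTwoArrow : (Fin 2 → ℝ) ≃ᵐ ℝ × ℝ) ⁻¹'
      {q : ℝ × ℝ | 0 ≤ q.1 ∧ 0 ≤ q.2 ∧ q.1 + q.2 ≤ 1} = stdTri := by
    ext s
    simp [stdTri, MeasurableEquiv.finTwoArrow]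
  rw [h1] at h
  rw [h, Measure.volume_eq_prod]
  have hm : MeasurableSet {q : ℝ × ℝ | 0 ≤ q.1 ∧ 0 ≤ q.2 ∧ q.1 + q.2 ≤ 1} := by
    apply IsClosed.measurableSet
    exact (isClosed_le continuous_const continuous_fst).inter
      ((isClosed_le continuous_const continuous_snd).inter
        (isClosed_le (continuous_fst.add continuous_snd) continuous_const))
  rw [Measure.prod_apply hm]
  have h2 : ∀ x : ℝ, volume (Prod.mk x ⁻¹' {q : ℝ × ℝ | 0 ≤ q.1 ∧ 0 ≤ q.2 ∧ q.1 + q.2 ≤ 1}) =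
      (Icc (0 : ℝ) 1).indicator (fun x => ENNReal.ofReal (1 - x)) x := by
    intro x
    by_cases hx : x ∈ Icc (0 : ℝ) 1
    · rw [indicator_of_mem hx]
      have : Prod.mk x ⁻¹' {q : ℝ × ℝ | 0 ≤ q.1 ∧ 0 ≤ q.2 ∧ q.1 + q.2 ≤ 1} = Icc 0 (1 - x) := by
        ext y
        simp only [mem_preimage, mem_setOf_eq, mem_Icc]
        constructor
        · rintro ⟨-, h0, h1⟩; exact ⟨h0, by linarith⟩
        · rintro ⟨h0, h1⟩; exact ⟨hx.1, h0, by linarith⟩
      rw [this, Real.volume_Icc]; simp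
    · rw [indicator_of_notMem hx]
      have : Prod.mk x ⁻¹' {q : ℝ × ℝ | 0 ≤ q.1 ∧ 0 ≤ q.2 ∧ q.1 + q.2 ≤ 1} = ∅ := by
        ext y
        simp only [mem_preimage, mem_setOf_eq, mem_empty_iff_false, iff_false]
        rintro ⟨h0, h1, h2⟩
        exact hx ⟨h0, by linarith⟩
      rw [this]; simp
  simp_rw [h2]
  rw [lintegral_indicator measurableSet_Icc]
  rw [← ofReal_integral_eq_lintegral_ofReal]
  · congr 1
    rw [integral_Icc_eq_integral_Ioc, ← intervalIntegral.integral_of_le (by norm_num)]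
    rw [intervalIntegral.integral_sub (by simp) (by simp)]
    simp
    norm_num
  · exact (continuous_const.sub continuous_id).continuousOn.integrableOn_compact isCompact_Icc
  · filter_upwards [ae_restrict_mem measurableSet_Icc] with x hx
    simp only [Pi.zero_apply]
    linarith [hx.2]

/-- The parameter rectangle `(a,b)×(a,b)`. -/
lemma volume_Ioo_square (a b : ℝ) :
    volume {s : Fin 2 → ℝ | (a < s 0 ∧ s 0 < b) ∧ (a < s 1 ∧ s 1 < b)} =
      ENNReal.ofReal (b - a) * ENNReal.ofReal (b - a) := by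
  have : {s : Fin 2 → ℝ | (a < s 0 ∧ s 0 < b) ∧ (a < s 1 ∧ s 1 < b)} =
      Set.pi univ (fun _ => Ioo a b) := by
    ext s
    simp [Fin.forall_fin_two]
  rw [this, Real.volume_pi_Ioo]
  simp [sq]

lemma volume_Icc_square (a b : ℝ) :
    volume {s : Fin 2 → ℝ | (a ≤ s 0 ∧ s 0 ≤ b) ∧ (a ≤ s 1 ∧ s 1 ≤ b)} =
      ENNReal.ofReal (b - a) * ENNReal.ofReal (b - a) := by
  have : {s : Fin 2 → ℝ | (a ≤ s 0 ∧ s 0 ≤ b) ∧ (a ≤ s 1 ∧ s 1 ≤ b)} =
      Icc (fun _ => a) (fun _ => b) := by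
    ext s
    simp only [mem_ofPred_eq, mem_Icc, Pi.le_def, Fin.forall_fin_two]
    tauto
  rw [this, Real.volume_Icc_pi]
  simp [sq]

omit [MeasurableSpace X] [BorelSpace X] in
/-- Convex combinations of three points. -/
lemma convex_three_mem {C : Set X} (hC : Convex ℝ C) {p q r : X} (hp : p ∈ C) (hq : q ∈ C)
    (hr : r ∈ C) {a b c : ℝ} (ha : 0 ≤ a) (hb : 0 ≤ b) (hc : 0 ≤ c) (h : a + b + c = 1) :
    a • p + b • q + c • r ∈ C := by
  have := hC.sum_mem (t := Finset.univ) (w := ![a, b, c]) (z := ![p, q, r])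
    (by intro i _; fin_cases i <;> simp [ha, hb, hc])
    (by simp [Fin.sum_univ_three, h])
    (by intro i _; fin_cases i <;> simp [hp, hq, hr])
  simpa [Fin.sum_univ_three] using this

omit [MeasurableSpace X] [BorelSpace X] in
lemma mem_triangle (p q r : X) {a b c : ℝ} (ha : 0 ≤ a) (hb : 0 ≤ b) (hc : 0 ≤ c)
    (h : a + b + c = 1) : a • p + b • q + c • r ∈ convexHull ℝ ({p, q, r} : Set X) :=
  convex_three_mem (convex_convexHull ℝ _) (subset_convexHull ℝ _ (by simp))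
    (subset_convexHull ℝ _ (by simp)) (subset_convexHull ℝ _ (by simp)) ha hb hc h

omit [MeasurableSpace X] [BorelSpace X] in
lemma convexHull_triangle_eq (p q r : X) :
    convexHull ℝ ({p, q, r} : Set X) =
      (fun s : Fin 2 → ℝ => p + s 0 • (q - p) + s 1 • (r - p)) '' stdTri := by
  apply Subset.antisymm
  · apply convexHull_min
    · rintro x (rfl | rfl | rfl)
      · exact ⟨![0, 0], by simp [stdTri], by simp⟩
      · exact ⟨![1, 0], by simp [stdTri], by simp⟩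
      · exact ⟨![0, 1], by simp [stdTri], by simp⟩
    · rintro _ ⟨s, hs, rfl⟩ _ ⟨t, ht, rfl⟩ a b ha hb hab
      refine ⟨a • s + b • t, ?_, ?_⟩
      · simp only [stdTri, mem_ofPred_eq, Pi.add_apply, Pi.smul_apply, smul_eq_mul] at hs ht ⊢
        refine ⟨by nlinarith [hs.1, ht.1, mul_nonneg ha hs.1, mul_nonneg hb ht.1],
          by nlinarith [hs.2.1, ht.2.1, mul_nonneg ha hs.2.1, mul_nonneg hb ht.2.1], ?_⟩
        have h1 := mul_le_mul_of_nonneg_left hs.2.2 ha
        have h2 := mul_le_mul_of_nonneg_left ht.2.2 hb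
        nlinarith
      · simp only [Pi.add_apply, Pi.smul_apply, smul_eq_mul, add_smul, mul_smul, smul_add]
        have : p = a • p + b • p := by rw [← add_smul, hab, one_smul]
        nth_rw 1 [this]
        abel
  · rintro _ ⟨s, hs, rfl⟩
    have : p + s 0 • (q - p) + s 1 • (r - p) = (1 - s 0 - s 1) • p + s 0 • q + s 1 • r := by
      simp only [smul_sub, sub_smul, one_smul]; abel
    simp only [this]
    exact mem_triangle p q r (by linarith [hs.2.2]) hs.1 hs.2.1 (by ring)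

/-- The area of a nondegenerate triangle. -/
theorem area_triangle (p q r : X) (hg : 0 < gram (q - p) (r - p)) :
    μHE[2] (convexHull ℝ ({p, q, r} : Set X)) =
      ENNReal.ofReal (Real.sqrt (gram (q - p) (r - p)) / 2) := by
  rw [convexHull_triangle_eq, area_affine_image _ _ _ hg, volume_stdTri,
    ← ENNReal.ofReal_mul (Real.sqrt_nonneg _)]
  congr 1
  ring

/-- The area of a closed parallelogram, as the set appears in the statements. -/
theorem area_parallelogram (c a b : X) (hg : 0 < gram a b) :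
    μHE[2] {x : X | ∃ s ∈ Icc (0 : ℝ) 1, ∃ t ∈ Icc (0 : ℝ) 1, x = c + s • a + t • b} =
      ENNReal.ofReal (Real.sqrt (gram a b)) := by
  have : {x : X | ∃ s ∈ Icc (0 : ℝ) 1, ∃ t ∈ Icc (0 : ℝ) 1, x = c + s • a + t • b} =
      (fun s : Fin 2 → ℝ => c + s 0 • a + s 1 • b) ''
        {s : Fin 2 → ℝ | (0 ≤ s 0 ∧ s 0 ≤ 1) ∧ (0 ≤ s 1 ∧ s 1 ≤ 1)} := by
    ext x
    constructor
    · rintro ⟨s, hs, t, ht, rfl⟩
      exact ⟨![s, t], ⟨hs, ht⟩, by simp⟩
    · rintro ⟨s, hs, rfl⟩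
      exact ⟨s 0, hs.1, s 1, hs.2, rfl⟩
  rw [this, area_affine_image _ _ _ hg, volume_Icc_square]
  simp

/-- The area of an open enlarged parallelogram. -/
theorem area_open_parallelogram (c a b : X) (hg : 0 < gram a b) (θ : ℝ) (hθ : 0 ≤ θ) :
    μHE[2] {x : X | ∃ s ∈ Ioo (-θ) (1 + θ), ∃ t ∈ Ioo (-θ) (1 + θ), x = c + s • a + t • b} =
      ENNReal.ofReal ((1 + 2 * θ) ^ 2 * Real.sqrt (gram a b)) := by
  have : {x : X | ∃ s ∈ Ioo (-θ) (1 + θ), ∃ t ∈ Ioo (-θ) (1 + θ), x = c + s • a + t • b} =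
      (fun s : Fin 2 → ℝ => c + s 0 • a + s 1 • b) ''
        {s : Fin 2 → ℝ | (-θ < s 0 ∧ s 0 < 1 + θ) ∧ (-θ < s 1 ∧ s 1 < 1 + θ)} := by
    ext x
    constructor
    · rintro ⟨s, hs, t, ht, rfl⟩
      exact ⟨![s, t], ⟨hs, ht⟩, by simp⟩
    · rintro ⟨s, hs, rfl⟩
      exact ⟨s 0, hs.1, s 1, hs.2, rfl⟩
  rw [this, area_affine_image _ _ _ hg, volume_Ioo_square,
    ← ENNReal.ofReal_mul (by linarith), ← ENNReal.ofReal_mul (Real.sqrt_nonneg _)]
  congr 1
  ring

end Crest.Agent.Lib.Tet
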