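import Crest.Agent.Lib.Tet.Numeric

/-!
Assembly of the two families and of padding triangles into one family indexed by a `Fin`.
-/

set_option autoImplicit false

open MeasureTheory Set
open scoped ENNReal

noncomputable section

namespace Crest.Agent.Lib.Tet

/-- A cylinder datum: direction and three base vertices. -/
abbrev Tup := E3 × E3 × E3 × E3

/-- Datum of a lower needle. -/
def lowT (μ h c : ℝ) : Tup := (lowU μ c, lowP μ h c, lowQ μ h c, lowR μ h c)

/-- Datum of an upper needle. -/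
def upT (μ h c : ℝ) : Tup := (upU μ c, upP μ h c, upQ μ h c, upR μ h c)

/-- The third basis vector. -/
def e3v : E3 := !₂[0, 0, 1]

/-- A padding triangle of area `a / 2`. -/
def padT (a : ℝ) : Tup := (e3v, 0, !₂[Real.sqrt a, 0, 0], !₂[0, Real.sqrt a, 0])

lemma norm_e3v : ‖e3v‖ = 1 := by
  have h : ‖e3v‖ ^ 2 = 1 := by rw [e3v, norm_vec3_sq]; norm_num
  exact (pow_eq_one_iff_of_nonneg (norm_nonneg _) (by norm_num)).1 h

lemma area_pad {a : ℝ} (ha : 0 < a) :
    μHE[2] (convexHull ℝ ({(padT a).2.1, (padT a).2.2.1, (padT a).2.2.2} : Set E3)) =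
      ENNReal.ofReal (a / 2) := by
  have hs : Real.sqrt a ^ 2 = a := Real.sq_sqrt ha.le
  have hgram : gram ((!₂[Real.sqrt a, 0, 0] : E3) - 0) ((!₂[0, Real.sqrt a, 0] : E3) - 0) = a ^ 2 := by
    rw [sub_zero, sub_zero, gram, norm_vec3_sq, norm_vec3_sq, inner_vec3]
    rw [hs]
    ring
  have hpos : 0 < gram ((!₂[Real.sqrt a, 0, 0] : E3) - 0) ((!₂[0, Real.sqrt a, 0] : E3) - 0) := by
    rw [hgram]; positivity
  simp only [padT]
  rw [area_triangle _ _ _ hpos, hgram, Real.sqrt_sq ha.le]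

/-- The combined family: `n` lower needles, `n` upper needles, then padding. -/
def combT (n : ℕ) (μ a : ℝ) (k : ℕ) : Tup :=
  if k < n then lowT μ (1 / n) (cellC n k)
  else if k < 2 * n then upT μ (1 / n) (cellC n (k - n)) else padT a

lemma norm_lowU (μ c : ℝ) : ‖lowU μ c‖ = 1 := norm_unitOf (dirL_ne μ c)
lemma norm_upU (μ c : ℝ) : ‖upU μ c‖ = 1 := norm_unitOf (dirU_ne μ c)

lemma perp_low (μ h c : ℝ) : inner ℝ (lowP μ h c) (lowU μ c) = (0 : ℝ) ∧
    inner ℝ (lowQ μ h c) (lowU μ c) = (0 : ℝ) ∧ inner ℝ (lowR μ h c) (lowU μ c) = (0 : ℝ) :=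
  ⟨inner_proj_unitOf (dirL_ne μ c) _, inner_proj_unitOf (dirL_ne μ c) _,
    inner_proj_unitOf (dirL_ne μ c) _⟩

lemma perp_up (μ h c : ℝ) : inner ℝ (upP μ h c) (upU μ c) = (0 : ℝ) ∧
    inner ℝ (upQ μ h c) (upU μ c) = (0 : ℝ) ∧ inner ℝ (upR μ h c) (upU μ c) = (0 : ℝ) :=
  ⟨inner_proj_unitOf (dirU_ne μ c) _, inner_proj_unitOf (dirU_ne μ c) _,
    inner_proj_unitOf (dirU_ne μ c) _⟩

lemma perp_pad (a : ℝ) : inner ℝ (padT a).2.1 (padT a).1 = (0 : ℝ) ∧
    inner ℝ (padT a).2.2.1 (padT a).1 = (0 : ℝ) ∧ inner ℝ (padT a).2.2.2 (padT a).1 = (0 : ℝ) := by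
  refine ⟨by simp [padT], ?_, ?_⟩
  · simp only [padT, e3v]; rw [inner_vec3]; ring
  · simp only [padT, e3v]; rw [inner_vec3]; ring

lemma combT_norm (n : ℕ) (μ a : ℝ) (k : ℕ) : ‖(combT n μ a k).1‖ = 1 := by
  unfold combT
  split_ifs
  · exact norm_lowU _ _
  · exact norm_upU _ _
  · exact norm_e3v

lemma combT_perp (n : ℕ) (μ a : ℝ) (k : ℕ) :
    inner ℝ (combT n μ a k).2.1 (combT n μ a k).1 = (0 : ℝ) ∧
    inner ℝ (combT n μ a k).2.2.1 (combT n μ a k).1 = (0 : ℝ) ∧
    inner ℝ (combT n μ a k).2.2.2 (combT n μ a k).1 = (0 : ℝ) := by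
  unfold combT
  split_ifs
  · exact perp_low _ _ _
  · exact perp_up _ _ _
  · exact perp_pad _

/-- The exact statement of the second half of `S0325`, with the tetrahedron written as `tetK`. -/
theorem exists_cover_exact {ε : ℝ} (hε : 0 < ε) (hε' : ε ≤ 1 / 2000) :
    ∃ (u p q r : Fin (2 * ⌈2 / ε ^ 2⌉₊) → E3),
      (∀ i, ‖u i‖ = 1) ∧
      (∀ i, inner ℝ (p i) (u i) = (0 : ℝ) ∧ inner ℝ (q i) (u i) = (0 : ℝ) ∧
        inner ℝ (r i) (u i) = (0 : ℝ)) ∧
      tetK ⊆ ⋃ i, {x : E3 | ∃ b ∈ convexHull ℝ {p i, q i, r i}, ∃ t : ℝ, x = b + t • u i} ∧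
      abs ((∑ i, (μHE[2] (convexHull ℝ ({p i, q i, r i} : Set E3))).toReal) / Real.sqrt 2 -
          (1 / 2 - 13 / 6000 * ε ^ 2)) ≤ 2 * ε ^ 4 := by
  have hε2 : 0 < ε ^ 2 := by positivity
  have hεsq : ε ^ 2 ≤ 1 := by
    have := pow_le_pow_left₀ hε.le hε' 2
    norm_num at this
    linarith
  set N := ⌈2 / ε ^ 2⌉₊ with hN
  have hNge : 2 / ε ^ 2 ≤ N := Nat.le_ceil _
  have h2 : 2 ≤ 2 / ε ^ 2 := by
    rw [le_div_iff₀ hε2]; linarith
  have hNR : (2 : ℝ) ≤ N := h2.trans hNge
  have hN2 : 2 ≤ N := by exact_mod_cast hNR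
  obtain ⟨n, hnN⟩ : ∃ n, N = n + 1 := ⟨N - 1, by omega⟩
  have hn : 0 < n := by omega
  have hnR : (0 : ℝ) < n := by exact_mod_cast hn
  have hNn : (N : ℝ) = n + 1 := by rw [hnN]; push_cast; ring
  have hnε : (1 : ℝ) / n ≤ ε ^ 2 := by
    rw [div_le_iff₀ hnR]
    have h3 : 2 ≤ (n + 1) * ε ^ 2 := by
      have := (div_le_iff₀ hε2).1 hNge
      rwa [hNn] at this
    linarith
  set μ := ε / 2 with hμ
  have hμ0 : 0 ≤ μ := by positivity
  have hμ1 : μ ≤ 1 / 20 := by rw [hμ]; linarith
  set T := 1 / 2 - 13 / 6000 * ε ^ 2 with hT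
  set S := ∑ k ∈ Finset.range n, 2 * aVal μ (1 / n) (cellC n k) with hS
  have hSlt : S < Real.sqrt 2 * T := total_area_lt hε hε' hn hnε
  set a := Real.sqrt 2 * T - S with ha
  have hapos : 0 < a := by rw [ha]; linarith
  refine ⟨fun i => (combT n μ a i).1, fun i => (combT n μ a i).2.1, fun i => (combT n μ a i).2.2.1,
    fun i => (combT n μ a i).2.2.2, fun i => combT_norm _ _ _ _, fun i => combT_perp _ _ _ _,
    ?_, ?_⟩
  · intro x hx
    obtain ⟨k, hk, hcase⟩ := tetK_cover hμ0 hμ1 hn hx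
    rcases hcase with hcase | hcase
    · have hidx : k < 2 * N := by omega
      refine mem_iUnion.2 ⟨⟨k, hidx⟩, ?_⟩
      have : combT n μ a k = lowT μ (1 / n) (cellC n k) := by
        rw [combT, if_pos hk]
      simp only [this]
      exact hcase
    · have hidx : n + k < 2 * N := by omega
      refine mem_iUnion.2 ⟨⟨n + k, hidx⟩, ?_⟩
      have : combT n μ a (n + k) = upT μ (1 / n) (cellC n k) := by
        rw [combT, if_neg (by omega), if_pos (by omega)]
        simp
      simp only [this]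
      exact hcase
  · have hsum : (∑ i : Fin (2 * N), (μHE[2] (convexHull ℝ ({(combT n μ a i).2.1,
        (combT n μ a i).2.2.1, (combT n μ a i).2.2.2} : Set E3))).toReal) =
        Real.sqrt 2 * T := by
      rw [Fin.sum_univ_eq_sum_range (fun k => (μHE[2] (convexHull ℝ ({(combT n μ a k).2.1,
        (combT n μ a k).2.2.1, (combT n μ a k).2.2.2} : Set E3))).toReal)]
      have e1 : 2 * N = (n + n) + 2 := by omega
      rw [e1, Finset.sum_range_succ, Finset.sum_range_succ, Finset.sum_range_add]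
      have hh : (0 : ℝ) < 1 / n := by positivity
      have t1 : ∀ k ∈ Finset.range n, (μHE[2] (convexHull ℝ ({(combT n μ a k).2.1,
          (combT n μ a k).2.2.1, (combT n μ a k).2.2.2} : Set E3))).toReal =
          aVal μ (1 / n) (cellC n k) := by
        intro k hk
        have hk' := Finset.mem_range.1 hk
        have : combT n μ a k = lowT μ (1 / n) (cellC n k) := by
          rw [combT, if_pos hk']
        rw [this]
        simp only [lowT]
        rw [area_low hμ0 hh, ENNReal.toReal_ofReal (aVal_nonneg hh.le)]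
      have t2 : ∀ k ∈ Finset.range n, (μHE[2] (convexHull ℝ ({(combT n μ a (n + k)).2.1,
          (combT n μ a (n + k)).2.2.1, (combT n μ a (n + k)).2.2.2} : Set E3))).toReal =
          aVal μ (1 / n) (cellC n k) := by
        intro k hk
        have hk' := Finset.mem_range.1 hk
        have : combT n μ a (n + k) = upT μ (1 / n) (cellC n k) := by
          rw [combT, if_neg (by omega), if_pos (by omega)]
          simp
        rw [this]
        simp only [upT]
        rw [area_up hμ0 hh, ENNReal.toReal_ofReal (aVal_nonneg hh.le)]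
      have t3 : (μHE[2] (convexHull ℝ ({(combT n μ a (n + n)).2.1,
          (combT n μ a (n + n)).2.2.1, (combT n μ a (n + n)).2.2.2} : Set E3))).toReal = a / 2 := by
        have : combT n μ a (n + n) = padT a := by
          rw [combT, if_neg (by omega), if_neg (by omega)]
        rw [this, area_pad hapos, ENNReal.toReal_ofReal (by positivity)]
      have t4 : (μHE[2] (convexHull ℝ ({(combT n μ a (n + n + 1)).2.1,
          (combT n μ a (n + n + 1)).2.2.1, (combT n μ a (n + n + 1)).2.2.2} : Set E3))).toReal =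
          a / 2 := by
        have : combT n μ a (n + n + 1) = padT a := by
          rw [combT, if_neg (by omega), if_neg (by omega)]
        rw [this, area_pad hapos, ENNReal.toReal_ofReal (by positivity)]
      rw [Finset.sum_congr rfl t1, Finset.sum_congr rfl t2, t3, t4]
      have e2 : (∑ k ∈ Finset.range n, aVal μ (1 / n) (cellC n k)) +
          (∑ k ∈ Finset.range n, aVal μ (1 / n) (cellC n k)) = S := by
        rw [hS, ← Finset.sum_add_distrib]
        exact Finset.sum_congr rfl fun _ _ => by ring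
      rw [ha] at *
      linarith
    simp only []
    rw [hsum]
    have hs2 : Real.sqrt 2 ≠ 0 := sqrt2_pos.ne'
    have : Real.sqrt 2 * T / Real.sqrt 2 - T = 0 := by
      field_simp; ring
    rw [this, abs_zero]
    positivity

end Crest.Agent.Lib.Tet
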