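import Crest.Agent.Lib.Tet.Families

/-!
The cover of the standard regular tetrahedron by the two families of needles.
-/

set_option autoImplicit false

open MeasureTheory Set
open scoped ENNReal

noncomputable section

namespace Crest.Agent.Lib.Tet

/-- The standard regular tetrahedron of edge length two. -/
def tetK : Set E3 :=
  convexHull ℝ {!₂[1, 0, 0], !₂[-1, 0, 0], !₂[0, 1, Real.sqrt 2], !₂[0, -1, Real.sqrt 2]}

lemma sqrt2_pos : 0 < Real.sqrt 2 := Real.sqrt_pos.2 (by norm_num)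

lemma tetK_coords {p : E3} (hp : p ∈ tetK) :
    ∃ ζ : ℝ, p 2 = Real.sqrt 2 * ζ ∧ 0 ≤ ζ ∧ ζ ≤ 1 ∧ |p 0| ≤ 1 - ζ ∧ |p 1| ≤ ζ := by
  have hs : Real.sqrt 2 ≠ 0 := sqrt2_pos.ne'
  have hconv : Convex ℝ {p : E3 | |p 0| ≤ 1 - p 2 / Real.sqrt 2 ∧ |p 1| ≤ p 2 / Real.sqrt 2} := by
    intro x hx y hy a b ha hb hab
    have h0 : (a • x + b • y) 0 = a * x 0 + b * y 0 := by simp
    have h1 : (a • x + b • y) 1 = a * x 1 + b * y 1 := by simp
    have h2 : (a • x + b • y) 2 = a * x 2 + b * y 2 := by simp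
    have h3 : (a * x 2 + b * y 2) / Real.sqrt 2 =
        a * (x 2 / Real.sqrt 2) + b * (y 2 / Real.sqrt 2) := by ring
    refine ⟨?_, ?_⟩
    · simp only [h0, h2, h3]
      refine (abs_add_le _ _).trans ?_
      rw [abs_mul, abs_mul, abs_of_nonneg ha, abs_of_nonneg hb]
      have := mul_le_mul_of_nonneg_left hx.1 ha
      have := mul_le_mul_of_nonneg_left hy.1 hb
      have e : b = 1 - a := by linarith
      subst e
      nlinarith
    · simp only [h1, h2, h3]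
      refine (abs_add_le _ _).trans ?_
      rw [abs_mul, abs_mul, abs_of_nonneg ha, abs_of_nonneg hb]
      have := mul_le_mul_of_nonneg_left hx.2 ha
      have := mul_le_mul_of_nonneg_left hy.2 hb
      linarith
  have hsub : tetK ⊆ {p : E3 | |p 0| ≤ 1 - p 2 / Real.sqrt 2 ∧ |p 1| ≤ p 2 / Real.sqrt 2} := by
    apply convexHull_min _ hconv
    rintro x (rfl | rfl | rfl | rfl)
    · simp
    · simp
    · simp [hs]
    · simp [hs]
  obtain ⟨h1, h2⟩ := hsub hp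
  refine ⟨p 2 / Real.sqrt 2, by field_simp, (abs_nonneg _).trans h2, ?_, h1, h2⟩
  linarith [abs_nonneg (p 0)]

/-- Centres of the grid on `[-1, 1]`. -/
def cellC (n k : ℕ) : ℝ := -1 + (2 * k + 1) / n

lemma cellC_abs_le {n k : ℕ} (hk : k < n) : |cellC n k| ≤ 1 := by
  have hn : (0 : ℝ) < n := by
    have : 0 < n := by omega
    exact_mod_cast this
  have hk' : (k : ℝ) + 1 ≤ n := by exact_mod_cast hk
  rw [cellC, abs_le]
  constructor
  · have : 0 ≤ (2 * (k : ℝ) + 1) / n := by positivity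
    linarith
  · have : (2 * (k : ℝ) + 1) / n ≤ 2 := by
      rw [div_le_iff₀ hn]; linarith
    linarith

lemma exists_cell {n : ℕ} (hn : 0 < n) {t : ℝ} (ht : |t| ≤ 1) :
    ∃ k, k < n ∧ |t - cellC n k| ≤ 1 / n := by
  have hn' : (0 : ℝ) < n := by exact_mod_cast hn
  have ht' := abs_le.1 ht
  set a : ℝ := (t + 1) * n / 2 with ha
  have ha0 : 0 ≤ a := by
    apply div_nonneg (mul_nonneg (by linarith) hn'.le) (by norm_num)
  have han : a ≤ n := by
    rw [ha, div_le_iff₀ (by norm_num)]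
    nlinarith
  have key : ∀ k : ℕ, |2 * a - 2 * k - 1| ≤ 1 → |t - cellC n k| ≤ 1 / n := by
    intro k hk
    have e : t - cellC n k = (2 * a - 2 * k - 1) / n := by
      rw [cellC, ha]; field_simp; ring
    rw [e, abs_div, abs_of_pos hn']
    exact div_le_div_of_nonneg_right hk hn'.le
  by_cases hlt : a < n
  · refine ⟨⌊a⌋₊, ?_, key _ ?_⟩
    · exact (Nat.floor_lt ha0).2 hlt
    · have h1 := Nat.floor_le ha0
      have h2 := Nat.lt_floor_add_one a
      rw [abs_le]; constructor <;> linarith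
  · have hae : a = n := le_antisymm han (not_lt.1 hlt)
    refine ⟨n - 1, by omega, key _ ?_⟩
    have : ((n - 1 : ℕ) : ℝ) = n - 1 := by
      rw [Nat.cast_sub hn]; simp
    rw [this, hae]
    rw [abs_le]; constructor <;> linarith

/-! ### Abbreviations for the vertices of the needles -/

/-- unit direction, lower family -/
def lowU (μ c : ℝ) : E3 := unitOf (dirL μ c)
/-- first vertex, lower family -/
def lowP (μ h c : ℝ) : E3 := needleP (dirL μ c) apexL (axisL c) (5 * μ * h)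
/-- second vertex, lower family -/
def lowQ (μ h c : ℝ) : E3 :=
  needleQ (dirL μ c) apexL (axisL c) sideL (5 * μ * h) (Rbar μ h c + 2 * μ * h) h
/-- third vertex, lower family -/
def lowR (μ h c : ℝ) : E3 :=
  needleR (dirL μ c) apexL (axisL c) sideL (5 * μ * h) (Rbar μ h c + 2 * μ * h) h

/-- unit direction, upper family -/
def upU (μ c : ℝ) : E3 := unitOf (dirU μ c)
/-- first vertex, upper family -/
def upP (μ h c : ℝ) : E3 := needleP (dirU μ c) apexU (axisU c) (5 * μ * h)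
/-- second vertex, upper family -/
def upQ (μ h c : ℝ) : E3 :=
  needleQ (dirU μ c) apexU (axisU c) sideU (5 * μ * h) (Rbar μ h c + 2 * μ * h) h
/-- third vertex, upper family -/
def upR (μ h c : ℝ) : E3 :=
  needleR (dirU μ c) apexU (axisU c) sideU (5 * μ * h) (Rbar μ h c + 2 * μ * h) h

lemma Rbar_pos {μ h c : ℝ} (hμ : 0 ≤ μ) (hh : 0 ≤ h) : 0 < Rbar μ h c := by
  unfold Rbar; positivity

/-- **Covering.** Every point of the tetrahedron lies in a needle of one of the two families. -/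
theorem tetK_cover {μ : ℝ} {n : ℕ} (hμ : 0 ≤ μ) (hμ' : μ ≤ 1 / 20) (hn : 0 < n) {p : E3}
    (hp : p ∈ tetK) :
    ∃ k, k < n ∧
      (p ∈ triCyl (lowU μ (cellC n k)) (lowP μ (1 / n) (cellC n k)) (lowQ μ (1 / n) (cellC n k))
          (lowR μ (1 / n) (cellC n k)) ∨
        p ∈ triCyl (upU μ (cellC n k)) (upP μ (1 / n) (cellC n k)) (upQ μ (1 / n) (cellC n k))
          (upR μ (1 / n) (cellC n k))) := by
  have hn' : (0 : ℝ) < n := by exact_mod_cast hn
  have hh : (0 : ℝ) < 1 / n := by positivity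
  obtain ⟨ζ, hp2, hζ0, hζ1, hx, hy⟩ := tetK_coords hp
  have hx1 : |p 0| ≤ 1 := by linarith
  have hy1 : |p 1| ≤ 1 := by linarith
  obtain ⟨r, t, hr, ht, h1, h2⟩ := wedge_root μ (p 0) (p 1) ζ hy
  have hy' : |p 0| ≤ 1 - ζ := hx
  obtain ⟨r', t', hr', ht', h3, h4⟩ := wedge_root (-μ) (p 1) (p 0) (1 - ζ) hy'
  rcases cut_lemma hμ hμ' hx1 hy1 ht ht' h1 h2 h3 h4 with hcase | hcase
  · obtain ⟨k, hk, htk⟩ := exists_cell hn ht
    refine ⟨k, hk, Or.inl ?_⟩
    have hpos : 0 < Rbar μ (1 / n) (cellC n k) + 2 * μ * (1 / n) + 5 * μ * (1 / n) := by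
      have := Rbar_pos (c := cellC n k) hμ hh.le
      positivity
    exact lower_mem hμ hh (cellC_abs_le hk) ht htk hx1 hr hcase h1 h2 hpos rfl rfl hp2
  · obtain ⟨k, hk, htk⟩ := exists_cell hn ht'
    refine ⟨k, hk, Or.inr ?_⟩
    have hpos : 0 < Rbar μ (1 / n) (cellC n k) + 2 * μ * (1 / n) + 5 * μ * (1 / n) := by
      have := Rbar_pos (c := cellC n k) hμ hh.le
      positivity
    exact upper_mem hμ hh (cellC_abs_le hk) ht' htk hy1 hr' hcase h3 h4 hpos rfl rfl hp2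

/-! ### Areas -/

/-- The area of a needle in either family. -/
def aVal (μ h c : ℝ) : ℝ :=
  h * (Rbar μ h c + 2 * μ * h + 5 * μ * h) ^ 2 * Real.sqrt (2 / (1 + sVal μ c))

lemma area_low {μ h c : ℝ} (hμ : 0 ≤ μ) (hh : 0 < h) :
    μHE[2] (convexHull ℝ ({lowP μ h c, lowQ μ h c, lowR μ h c} : Set E3)) =
      ENNReal.ofReal (aVal μ h c) := by
  have hpos : 0 < Rbar μ h c + 2 * μ * h + 5 * μ * h := by
    have := Rbar_pos (c := c) hμ hh.le
    positivity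
  have hs : 0 < 1 + sVal μ c := by linarith [sVal_nonneg μ c]
  have := needle_area apexL (axisL c) sideL hpos hh (D := dirL μ c)
    (by rw [gram_axis_side_L]; positivity)
  rw [gram_axis_side_L] at this
  exact this

lemma area_up {μ h c : ℝ} (hμ : 0 ≤ μ) (hh : 0 < h) :
    μHE[2] (convexHull ℝ ({upP μ h c, upQ μ h c, upR μ h c} : Set E3)) =
      ENNReal.ofReal (aVal μ h c) := by
  have hpos : 0 < Rbar μ h c + 2 * μ * h + 5 * μ * h := by
    have := Rbar_pos (c := c) hμ hh.le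
    positivity
  have hs : 0 < 1 + sVal μ c := by linarith [sVal_nonneg μ c]
  have := needle_area apexU (axisU c) sideU hpos hh (D := dirU μ c)
    (by rw [gram_axis_side_U]; positivity)
  rw [gram_axis_side_U] at this
  exact this

lemma aVal_nonneg {μ h c : ℝ} (hh : 0 ≤ h) : 0 ≤ aVal μ h c := by
  unfold aVal; positivity

/-! ### The sum of the areas -/

lemma inv_sqrt_bound {s : ℝ} (hs : 0 ≤ s) : 1 / Real.sqrt (1 + s) ≤ 1 - s / 2 + s ^ 2 := by
  have hpos : 0 < Real.sqrt (1 + s) := Real.sqrt_pos.2 (by linarith)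
  have hq : 0 < 1 - s / 2 + s ^ 2 := by nlinarith [sq_nonneg (s - 1 / 4)]
  rw [div_le_iff₀ hpos]
  have h1 : (1 : ℝ) ≤ (1 - s / 2 + s ^ 2) ^ 2 * (1 + s) := by
    have : (1 - s / 2 + s ^ 2) ^ 2 * (1 + s) =
        1 + (5 / 4 * s ^ 2 + 5 / 4 * s ^ 3 + s ^ 5) := by ring
    rw [this]
    have : 0 ≤ 5 / 4 * s ^ 2 + 5 / 4 * s ^ 3 + s ^ 5 := by positivity
    linarith
  calc (1 : ℝ) = Real.sqrt 1 := Real.sqrt_one.symm
    _ ≤ Real.sqrt ((1 - s / 2 + s ^ 2) ^ 2 * (1 + s)) := Real.sqrt_le_sqrt h1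
    _ = (1 - s / 2 + s ^ 2) * Real.sqrt (1 + s) := by
        rw [Real.sqrt_mul (sq_nonneg _), Real.sqrt_sq hq.le]

/-- The small error term. -/
def eVal (μ h : ℝ) : ℝ := 15 * μ ^ 3 + 6 * μ ^ 2 * h + 7 * μ * h

/-- The constant error in the integrand. -/
def bigE (μ h : ℝ) : ℝ := eVal μ h + (2 * μ ^ 2 + eVal μ h) ^ 2 + 144 * μ ^ 4

/-- The integrand. -/
def bigF (μ h c : ℝ) : ℝ := 1 / 4 + μ ^ 2 * (-1 / 8 - c ^ 2 / 4 + 7 / 8 * c ^ 4) + bigE μ h

/-- The antiderivative of the integrand. -/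
def bigΦ (μ h t : ℝ) : ℝ :=
  t / 4 + μ ^ 2 * (-t / 8 - t ^ 3 / 12 + 7 / 40 * t ^ 5) + bigE μ h * t

lemma cell_bound {μ h c : ℝ} (hμ : 0 ≤ μ) (hμ' : μ ≤ 1 / 100) (hh : 0 ≤ h) (hh' : h ≤ 1)
    (hc : |c| ≤ 1) :
    (Rbar μ h c + 2 * μ * h + 5 * μ * h) ^ 2 * (1 / Real.sqrt (1 + sVal μ c)) ≤ bigF μ h c := by
  have hc2 : c ^ 2 ≤ 1 := by rw [← sq_abs c]; exact pow_le_one₀ (abs_nonneg _) hc
  have hc4 : c ^ 4 ≤ 1 := by
    have : c ^ 4 = (c ^ 2) ^ 2 := by ring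
    rw [this]; exact pow_le_one₀ (sq_nonneg _) hc2
  set e := eVal μ h with he
  have he0 : 0 ≤ e := by rw [he, eVal]; positivity
  set b := μ ^ 2 * (c ^ 2 + c ^ 4) + e with hb
  have hb0 : 0 ≤ b := by rw [hb]; positivity
  have hell : Rbar μ h c + 2 * μ * h + 5 * μ * h = 1 / 2 + b := by
    rw [hb, he, eVal, Rbar]; ring
  set s := sVal μ c with hs
  have hs0 : 0 ≤ s := sVal_nonneg μ c
  have hμ2 : μ ^ 2 ≤ 1 / 10000 := by
    have := pow_le_pow_left₀ hμ hμ' 2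
    norm_num at this ⊢; linarith
  have hbmax : b ≤ 2 * μ ^ 2 + e := by
    have : μ ^ 2 * (c ^ 2 + c ^ 4) ≤ μ ^ 2 * 2 := by
      apply mul_le_mul_of_nonneg_left _ (sq_nonneg _); linarith
    rw [hb]; linarith
  have hsmax : s ≤ 12 * μ ^ 2 := by
    have : μ ^ 2 * (1 + 10 * c ^ 2 + c ^ 4) ≤ μ ^ 2 * 12 := by
      apply mul_le_mul_of_nonneg_left _ (sq_nonneg _); linarith
    rw [hs, sVal]; linarith
  have hμ3 : μ ^ 3 ≤ 1 / 1000000 := by
    have := pow_le_pow_left₀ hμ hμ' 3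
    norm_num at this ⊢; linarith
  have heS : e ≤ 1 / 10 := by
    have h1 : 6 * μ ^ 2 * h ≤ 6 * μ ^ 2 * 1 := mul_le_mul_of_nonneg_left hh' (by positivity)
    have h2 : 7 * μ * h ≤ 7 * μ * 1 := mul_le_mul_of_nonneg_left hh' (by positivity)
    rw [he, eVal]; linarith
  have hbS : b ≤ 1 / 2 := by linarith
  have hJ := inv_sqrt_bound hs0
  rw [hell]
  have hJnn : 0 ≤ 1 - s / 2 + s ^ 2 := by nlinarith [sq_nonneg (s - 1 / 4)]
  have h1 : (1 / 2 + b) ^ 2 * (1 / Real.sqrt (1 + s)) ≤ (1 / 2 + b) ^ 2 * (1 - s / 2 + s ^ 2) :=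
    mul_le_mul_of_nonneg_left hJ (sq_nonneg _)
  have h2 : (1 / 2 + b) ^ 2 * (1 - s / 2 + s ^ 2) ≤ 1 / 4 + b - s / 8 + b ^ 2 + s ^ 2 := by
    have e1 : (1 / 2 + b) ^ 2 * (1 - s / 2 + s ^ 2) =
        1 / 4 + b - s / 8 + b ^ 2 + s ^ 2 * (1 / 4 + b + b ^ 2) - b * s / 2 - b ^ 2 * s / 2 := by
      ring
    have hbs : 0 ≤ b * s := mul_nonneg hb0 hs0
    have hb2s : 0 ≤ b ^ 2 * s := by positivity
    have h3 : s ^ 2 * (1 / 4 + b + b ^ 2) ≤ s ^ 2 * 1 := by
      apply mul_le_mul_of_nonneg_left _ (sq_nonneg _)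
      nlinarith
    rw [e1]; linarith
  have h3 : b ^ 2 ≤ (2 * μ ^ 2 + e) ^ 2 := pow_le_pow_left₀ hb0 hbmax 2
  have h4 : s ^ 2 ≤ 144 * μ ^ 4 := by
    have := pow_le_pow_left₀ hs0 hsmax 2
    have e2 : (12 * μ ^ 2) ^ 2 = 144 * μ ^ 4 := by ring
    linarith
  have h5 : bigF μ h c = 1 / 4 + (b - s / 8) + bigE μ h - e := by
    rw [bigF, hb, hs, sVal]; ring
  rw [h5, bigE, ← he]
  linarith

lemma cell_telescope (μ h c : ℝ) (hh : 0 ≤ h) :
    2 * h * bigF μ h c ≤ bigΦ μ h (c + h) - bigΦ μ h (c - h) + μ ^ 2 * h ^ 3 / 6 := by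
  have e : bigΦ μ h (c + h) - bigΦ μ h (c - h) + μ ^ 2 * h ^ 3 / 6 - 2 * h * bigF μ h c =
      μ ^ 2 * (7 / 2 * c ^ 2 * h ^ 3 + 7 / 20 * h ^ 5) := by
    simp only [bigΦ, bigF]; ring
  have h0 : 0 ≤ μ ^ 2 * (7 / 2 * c ^ 2 * h ^ 3 + 7 / 20 * h ^ 5) := by positivity
  linarith

/-- **The total area of the two families.** -/
theorem sum_aVal_le {μ : ℝ} {n : ℕ} (hμ : 0 ≤ μ) (hμ' : μ ≤ 1 / 100) (hn : 0 < n) :
    ∑ k ∈ Finset.range n, 2 * aVal μ (1 / n) (cellC n k) ≤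
      Real.sqrt 2 * (1 / 2 - μ ^ 2 / 15 + 2 * bigE μ (1 / n) + μ ^ 2 * (1 / n) ^ 2 / 6) := by
  have hn' : (0 : ℝ) < n := by exact_mod_cast hn
  have hn1 : (1 : ℝ) ≤ n := by exact_mod_cast hn
  set h : ℝ := 1 / n with hh
  have hh0 : 0 < h := by positivity
  have hh1 : h ≤ 1 := by rw [hh, div_le_one hn']; exact hn1
  set g : ℕ → ℝ := fun k => bigΦ μ h (-1 + 2 * k / n) with hg
  have hterm : ∀ k ∈ Finset.range n, 2 * aVal μ h (cellC n k) ≤
      Real.sqrt 2 * (g (k + 1) - g k + μ ^ 2 * h ^ 3 / 6) := by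
    intro k hk
    have hk' : k < n := Finset.mem_range.1 hk
    have hc := cellC_abs_le hk'
    have h1 := cell_bound (c := cellC n k) hμ hμ' hh0.le hh1 hc
    have h2 := cell_telescope μ h (cellC n k) hh0.le
    have e1 : cellC n k + h = -1 + 2 * ((k + 1 : ℕ) : ℝ) / n := by
      rw [cellC, hh]; push_cast; field_simp; ring
    have e2 : cellC n k - h = -1 + 2 * (k : ℝ) / n := by
      rw [cellC, hh]; field_simp; ring
    rw [e1, e2] at h2
    have hs : 0 < 1 + sVal μ (cellC n k) := by linarith [sVal_nonneg μ (cellC n k)]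
    have e3 : aVal μ h (cellC n k) = Real.sqrt 2 * (h *
        ((Rbar μ h (cellC n k) + 2 * μ * h + 5 * μ * h) ^ 2 *
          (1 / Real.sqrt (1 + sVal μ (cellC n k))))) := by
      rw [aVal, Real.sqrt_div (by norm_num)]
      ring
    rw [e3]
    have h3 : h * ((Rbar μ h (cellC n k) + 2 * μ * h + 5 * μ * h) ^ 2 *
          (1 / Real.sqrt (1 + sVal μ (cellC n k)))) ≤ h * bigF μ h (cellC n k) :=
      mul_le_mul_of_nonneg_left h1 hh0.le
    have h4 : (0 : ℝ) ≤ Real.sqrt 2 := Real.sqrt_nonneg _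
    have h5 : 2 * (h * bigF μ h (cellC n k)) ≤ g (k + 1) - g k + μ ^ 2 * h ^ 3 / 6 := by
      simp only [hg]; linarith
    have h6 : 2 * (h * ((Rbar μ h (cellC n k) + 2 * μ * h + 5 * μ * h) ^ 2 *
          (1 / Real.sqrt (1 + sVal μ (cellC n k))))) ≤
        g (k + 1) - g k + μ ^ 2 * h ^ 3 / 6 := by linarith
    calc 2 * (Real.sqrt 2 * (h * ((Rbar μ h (cellC n k) + 2 * μ * h + 5 * μ * h) ^ 2 *
          (1 / Real.sqrt (1 + sVal μ (cellC n k))))))
        = Real.sqrt 2 * (2 * (h * ((Rbar μ h (cellC n k) + 2 * μ * h + 5 * μ * h) ^ 2 *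
          (1 / Real.sqrt (1 + sVal μ (cellC n k)))))) := by ring
      _ ≤ _ := mul_le_mul_of_nonneg_left h6 h4
  refine (Finset.sum_le_sum hterm).trans ?_
  rw [← Finset.mul_sum, Finset.sum_add_distrib, Finset.sum_range_sub, Finset.sum_const,
    Finset.card_range]
  apply mul_le_mul_of_nonneg_left _ (Real.sqrt_nonneg _)
  have e4 : g n = bigΦ μ h 1 := by
    simp only [hg]; congr 1; field_simp; ring
  have e5 : g 0 = bigΦ μ h (-1) := by
    simp only [hg]; congr 1; simp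
  rw [e4, e5, nsmul_eq_mul]
  have e6 : (n : ℝ) * (μ ^ 2 * h ^ 3 / 6) = μ ^ 2 * h ^ 2 / 6 := by
    rw [hh]; field_simp
  rw [e6]
  simp only [bigΦ]
  apply le_of_eq
  ring

end Crest.Agent.Lib.Tet
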