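import Mathlib

/-!
Algebra behind the cover of the regular tetrahedron: ruling of the wedge by lines, and the exact
identity that controls the overlap of the lower and the upper family.
-/

set_option autoImplicit false

noncomputable section

namespace Crest.Agent.Lib.Tet

/-- Every point with `|y| ≤ ζ` lies on a plane `y = t ζ + m (1 - t²)`, `|t| ≤ 1`, at a parameter
`r = ζ - 2 m t ≥ 0`. Here `m = μ x`. -/
lemma wedge_root_aux (m y ζ : ℝ) (hy : |y| ≤ ζ) :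
    ∃ r t : ℝ, 0 ≤ r ∧ |t| ≤ 1 ∧ y = t * r + m * (1 + t ^ 2) ∧ ζ = r + 2 * m * t := by
  have hζ : 0 ≤ ζ := (abs_nonneg y).trans hy
  have hy' := abs_le.1 hy
  set Δ := ζ ^ 2 - 4 * m * y + 4 * m ^ 2 with hΔ
  have hΔ0 : 0 ≤ Δ := by
    rcases le_total 0 m with hm | hm
    · have : Δ = (ζ - 2 * m) ^ 2 + 4 * m * (ζ - y) := by rw [hΔ]; ring
      rw [this]
      have := mul_nonneg hm (by linarith [hy'.2] : 0 ≤ ζ - y)
      nlinarith [sq_nonneg (ζ - 2 * m)]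
    · have : Δ = (ζ + 2 * m) ^ 2 - 4 * m * (ζ + y) := by rw [hΔ]; ring
      rw [this]
      have := mul_nonneg (neg_nonneg.2 hm) (by linarith [hy'.1] : 0 ≤ ζ + y)
      nlinarith [sq_nonneg (ζ + 2 * m)]
  set r := Real.sqrt Δ with hr
  have hr0 : 0 ≤ r := Real.sqrt_nonneg _
  have hr2 : r ^ 2 = Δ := Real.sq_sqrt hΔ0
  rcases eq_or_lt_of_le (add_nonneg hζ hr0) with hzero | hpos
  · -- degenerate point
    have hζ0 : ζ = 0 := by linarith
    have hr00 : r = 0 := by linarith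
    have hy0 : y = 0 := by
      have := abs_nonpos_iff.1 (by rw [← hζ0]; exact hy)
      exact this
    have hm0 : m = 0 := by
      have : Δ = 0 := by rw [← hr2, hr00]; ring
      rw [hΔ, hζ0, hy0] at this
      have h4 : 4 * m ^ 2 = 0 := by linarith
      have : m ^ 2 = 0 := by linarith
      exact pow_eq_zero_iff (by norm_num) |>.1 this
    exact ⟨0, 0, le_rfl, by simp, by simp [hy0, hm0], by simp [hζ0, hm0]⟩
  · set t := 2 * (y - m) / (ζ + r) with ht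
    have hne : ζ + r ≠ 0 := hpos.ne'
    have htmul : t * (ζ + r) = 2 * (y - m) := by rw [ht]; field_simp
    have h1 : ζ - r = 2 * m * t := by
      have : (ζ - r) * (ζ + r) = 2 * m * t * (ζ + r) := by
        have : (ζ - r) * (ζ + r) = ζ ^ 2 - r ^ 2 := by ring
        rw [this, hr2, hΔ, mul_assoc (2 * m), htmul]
        ring
      exact mul_right_cancel₀ hne this
    have h2 : ζ = r + 2 * m * t := by linarith
    have h3 : y = t * r + m * (1 + t ^ 2) := by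
      have : t * (2 * r + 2 * m * t) = 2 * (y - m) := by
        rw [← htmul, h2]; ring
      nlinarith
    refine ⟨r, t, hr0, ?_, h3, h2⟩
    rw [ht, abs_div, abs_of_pos hpos, div_le_one hpos, abs_le]
    rcases le_total 0 (y - m) with hs | hs
    · constructor
      · have := mul_nonneg (by norm_num : (0 : ℝ) ≤ 2) hs
        linarith
      · have hkey : (2 * (y - m) - ζ) ^ 2 ≤ r ^ 2 := by
          have : r ^ 2 - (2 * (y - m) - ζ) ^ 2 = 4 * (ζ - y) * (y - m) := by rw [hr2, hΔ]; ring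
          have h5 : 0 ≤ 4 * (ζ - y) * (y - m) :=
            mul_nonneg (mul_nonneg (by norm_num) (by linarith [hy'.2])) hs
          linarith
        have := abs_le.1 (abs_le_of_sq_le_sq hkey hr0)
        linarith [this.2]
    · constructor
      · have hkey : (2 * (y - m) + ζ) ^ 2 ≤ r ^ 2 := by
          have : r ^ 2 - (2 * (y - m) + ζ) ^ 2 = -4 * (y + ζ) * (y - m) := by rw [hr2, hΔ]; ring
          have h5 : 0 ≤ -4 * (y + ζ) * (y - m) := by
            have := mul_nonneg (mul_nonneg (by norm_num : (0 : ℝ) ≤ 4) (by linarith [hy'.1] : 0 ≤ y + ζ))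
              (neg_nonneg.2 hs)
            nlinarith
          linarith
        have := abs_le.1 (abs_le_of_sq_le_sq hkey hr0)
        linarith [this.1]
      · have := mul_nonneg (by norm_num : (0 : ℝ) ≤ 2) (neg_nonneg.2 hs)
        linarith

lemma wedge_root (μ x y ζ : ℝ) (hy : |y| ≤ ζ) :
    ∃ r t : ℝ, 0 ≤ r ∧ |t| ≤ 1 ∧ y = t * r + μ * x * (1 + t ^ 2) ∧ ζ = r + 2 * μ * x * t := by
  obtain ⟨r, t, h0, h1, h2, h3⟩ := wedge_root_aux (μ * x) y ζ hy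
  exact ⟨r, t, h0, h1, h2, by rw [h3]; ring⟩

/-- The extent function of the needles. -/
def rhoM (μ t : ℝ) : ℝ := 1 / 2 + μ ^ 2 * (t ^ 2 + t ^ 4) + 15 * μ ^ 3

/-- **The cut lemma.** A point of the tetrahedron is reached by the lower family within
`rhoM` or by the upper family within `rhoM`. -/
theorem cut_lemma {μ x y ζ r t r' t' : ℝ} (hμ : 0 ≤ μ) (hμ' : μ ≤ 1 / 20) (hx : |x| ≤ 1) (hy : |y| ≤ 1)
    (ht : |t| ≤ 1) (ht' : |t'| ≤ 1)
    (h1 : y = t * r + μ * x * (1 + t ^ 2)) (h2 : ζ = r + 2 * μ * x * t)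
    (h3 : x = t' * r' + (-μ) * y * (1 + t' ^ 2)) (h4 : 1 - ζ = r' + 2 * (-μ) * y * t') :
    r ≤ rhoM μ t ∨ r' ≤ rhoM μ t' := by
  by_contra hcon
  obtain ⟨hA, hB⟩ := not_or.1 hcon
  replace hA := not_le.1 hA
  replace hB := not_le.1 hB
  simp only [rhoM] at hA hB
  set e₁ := r - 1 / 2 with he₁
  set e₂ := r' - 1 / 2 with he₂
  have ht2 : t ^ 2 ≤ 1 := by
    rw [← sq_abs t]; exact pow_le_one₀ (abs_nonneg _) ht
  have ht'2 : t' ^ 2 ≤ 1 := by
    rw [← sq_abs t']; exact pow_le_one₀ (abs_nonneg _) ht'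
  have hcube : 0 ≤ μ ^ 3 := by positivity
  have hp1 : 0 ≤ μ ^ 2 * (t ^ 2 + t ^ 4) := by positivity
  have hp2 : 0 ≤ μ ^ 2 * (t' ^ 2 + t' ^ 4) := by positivity
  have he₁pos : μ ^ 2 * (t ^ 2 + t ^ 4) + 15 * μ ^ 3 < e₁ := by rw [he₁]; linarith
  have he₂pos : μ ^ 2 * (t' ^ 2 + t' ^ 4) + 15 * μ ^ 3 < e₂ := by rw [he₂]; linarith
  have he₁0 : 0 < e₁ := by linarith
  have he₂0 : 0 < e₂ := by linarith
  -- exact identity
  set Q := t ^ 2 * r * (1 + t' ^ 2) + t' ^ 2 * r' * (1 + t ^ 2)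
      + μ * (1 + t ^ 2) * (1 + t' ^ 2) * (x * t - y * t') with hQ
  have hid : e₁ + e₂ = 2 * μ * (t * t') * (e₁ - e₂) + 2 * μ ^ 2 * Q := by
    rw [he₁, he₂, hQ]
    linear_combination (-1 : ℝ) * h2 - h4 + (2 * μ * t' + 2 * μ ^ 2 * t * (1 + t' ^ 2)) * h1
      + (-2 * μ * t + 2 * μ ^ 2 * t' * (1 + t ^ 2)) * h3
  -- bounds
  have htt : |t * t'| ≤ 1 := by
    rw [abs_mul]; exact mul_le_one₀ ht (abs_nonneg _) ht'
  set E := e₁ + e₂ with hE
  have hstep1 : 2 * μ * (t * t') * (e₁ - e₂) ≤ 2 * μ * E := by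
    have h5 : (t * t') * (e₁ - e₂) ≤ E := by
      have h6 : |(t * t') * (e₁ - e₂)| ≤ 1 * |e₁ - e₂| := by
        rw [abs_mul]; exact mul_le_mul_of_nonneg_right htt (abs_nonneg _)
      have h7 : |e₁ - e₂| ≤ E := by
        rw [abs_le, hE]; constructor <;> linarith
      have := le_abs_self ((t * t') * (e₁ - e₂))
      linarith
    have := mul_le_mul_of_nonneg_left h5 (mul_nonneg (by norm_num : (0 : ℝ) ≤ 2) hμ)
    linarith
  set S₀ := t ^ 2 + t' ^ 2 + 2 * t ^ 2 * t' ^ 2 with hS₀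
  have hS₀le : S₀ ≤ 4 := by
    have : t ^ 2 * t' ^ 2 ≤ 1 := mul_le_one₀ ht2 (sq_nonneg _) ht'2
    rw [hS₀]; linarith
  have hS₀nn : 0 ≤ S₀ := by rw [hS₀]; positivity
  have hQle : Q ≤ S₀ / 2 + 2 * E + 8 * μ := by
    have h8 : t ^ 2 * r * (1 + t' ^ 2) = t ^ 2 * (1 + t' ^ 2) / 2 + t ^ 2 * (1 + t' ^ 2) * e₁ := by
      rw [he₁]; ring
    have h9 : t' ^ 2 * r' * (1 + t ^ 2) = t' ^ 2 * (1 + t ^ 2) / 2 + t' ^ 2 * (1 + t ^ 2) * e₂ := by
      rw [he₂]; ring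
    have ha : 1 + t ^ 2 ≤ 2 := by linarith
    have hb : 1 + t' ^ 2 ≤ 2 := by linarith
    have h10 : t ^ 2 * (1 + t' ^ 2) * e₁ ≤ 2 * e₁ := by
      apply mul_le_mul_of_nonneg_right _ he₁0.le
      have := mul_le_mul ht2 hb (by positivity) (by norm_num)
      linarith
    have h11 : t' ^ 2 * (1 + t ^ 2) * e₂ ≤ 2 * e₂ := by
      apply mul_le_mul_of_nonneg_right _ he₂0.le
      have := mul_le_mul ht'2 ha (by positivity) (by norm_num)
      linarith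
    have h12 : (1 + t ^ 2) * (1 + t' ^ 2) ≤ 4 := by
      have := mul_le_mul ha hb (by positivity) (by norm_num)
      linarith
    have h13 : x * t - y * t' ≤ 2 := by
      have a1 : x * t ≤ 1 := by
        have : |x * t| ≤ 1 := by rw [abs_mul]; exact mul_le_one₀ hx (abs_nonneg _) ht
        exact (le_abs_self _).trans this
      have a2 : -(y * t') ≤ 1 := by
        have : |y * t'| ≤ 1 := by rw [abs_mul]; exact mul_le_one₀ hy (abs_nonneg _) ht'
        exact (neg_le_abs _).trans this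
      linarith
    have h14 : μ * (1 + t ^ 2) * (1 + t' ^ 2) * (x * t - y * t') ≤ 8 * μ := by
      have h15 : 0 ≤ (1 + t ^ 2) * (1 + t' ^ 2) := by positivity
      have h16 : (1 + t ^ 2) * (1 + t' ^ 2) * (x * t - y * t') ≤ (1 + t ^ 2) * (1 + t' ^ 2) * 2 :=
        mul_le_mul_of_nonneg_left h13 h15
      have h17 : μ * ((1 + t ^ 2) * (1 + t' ^ 2) * (x * t - y * t')) ≤ μ * 8 :=
        mul_le_mul_of_nonneg_left (by linarith) hμ
      have h30 : μ * (1 + t ^ 2) * (1 + t' ^ 2) * (x * t - y * t') =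
          μ * ((1 + t ^ 2) * (1 + t' ^ 2) * (x * t - y * t')) := by ring
      rw [h30]; linarith
    have h25 : t ^ 2 * (1 + t' ^ 2) / 2 + t' ^ 2 * (1 + t ^ 2) / 2 = S₀ / 2 := by
      rw [hS₀]; ring
    rw [hQ, h8, h9, hE]
    linarith
  have hstep2 : (1 - 2 * μ - 4 * μ ^ 2) * E ≤ μ ^ 2 * S₀ + 16 * μ ^ 3 := by
    have h18 : 2 * μ ^ 2 * Q ≤ 2 * μ ^ 2 * (S₀ / 2 + 2 * E + 8 * μ) :=
      mul_le_mul_of_nonneg_left hQle (by positivity)
    have h26 : 2 * μ ^ 2 * (S₀ / 2 + 2 * E + 8 * μ) = μ ^ 2 * S₀ + 4 * μ ^ 2 * E + 16 * μ ^ 3 := by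
      ring
    have h27 : (1 - 2 * μ - 4 * μ ^ 2) * E = E - 2 * μ * E - 4 * μ ^ 2 * E := by ring
    have h28 : E = 2 * μ * (t * t') * (e₁ - e₂) + 2 * μ ^ 2 * Q := hid
    rw [h27]
    linarith
  have hEgt : μ ^ 2 * S₀ + 30 * μ ^ 3 < E := by
    have h19 : 2 * t ^ 2 * t' ^ 2 ≤ t ^ 4 + t' ^ 4 := by nlinarith [sq_nonneg (t ^ 2 - t' ^ 2)]
    have h20 : μ ^ 2 * S₀ ≤ μ ^ 2 * (t ^ 2 + t ^ 4) + μ ^ 2 * (t' ^ 2 + t' ^ 4) := by
      rw [hS₀, ← mul_add]
      apply mul_le_mul_of_nonneg_left _ (by positivity)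
      linarith
    rw [hE]; linarith
  have hμ2 : μ ^ 2 ≤ 1 / 400 := by
    have := pow_le_pow_left₀ hμ hμ' 2
    norm_num at this ⊢; linarith
  have hcoef : 0 < 1 - 2 * μ - 4 * μ ^ 2 := by linarith
  have h21 : (1 - 2 * μ - 4 * μ ^ 2) * (μ ^ 2 * S₀ + 30 * μ ^ 3) ≤
      (1 - 2 * μ - 4 * μ ^ 2) * E := mul_le_mul_of_nonneg_left hEgt.le hcoef.le
  rcases hμ.eq_or_lt with h0 | hpos
  · -- `μ = 0`
    subst h0
    have : E ≤ 0 := by simpa using hstep2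
    have hE0 : 0 < E := by rw [hE]; linarith
    linarith
  · have h22 : 14 * μ ^ 3 ≤ (2 * μ + 4 * μ ^ 2) * (μ ^ 2 * S₀ + 30 * μ ^ 3) := by
      have h29 : (1 - 2 * μ - 4 * μ ^ 2) * (μ ^ 2 * S₀ + 30 * μ ^ 3) =
          (μ ^ 2 * S₀ + 30 * μ ^ 3) - (2 * μ + 4 * μ ^ 2) * (μ ^ 2 * S₀ + 30 * μ ^ 3) := by ring
      linarith
    have h23 : (2 * μ + 4 * μ ^ 2) * (μ ^ 2 * S₀ + 30 * μ ^ 3) ≤
        (2 * μ + 4 * μ ^ 2) * (μ ^ 2 * 4 + 30 * μ ^ 3) := by
      apply mul_le_mul_of_nonneg_left _ (by positivity)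
      have := mul_le_mul_of_nonneg_left hS₀le (by positivity : 0 ≤ μ ^ 2)
      linarith
    have h24 : (2 * μ + 4 * μ ^ 2) * (μ ^ 2 * 4 + 30 * μ ^ 3) < 14 * μ ^ 3 := by
      have : (2 * μ + 4 * μ ^ 2) * (μ ^ 2 * 4 + 30 * μ ^ 3) =
          μ ^ 3 * ((2 + 4 * μ) * (4 + 30 * μ)) := by ring
      rw [this]
      have hp3 : 0 < μ ^ 3 := by positivity
      have : (2 + 4 * μ) * (4 + 30 * μ) < 14 := by
        have e : (2 + 4 * μ) * (4 + 30 * μ) = 8 + 76 * μ + 120 * μ ^ 2 := by ring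
        rw [e]; linarith
      exact (mul_lt_mul_of_pos_left this hp3).trans_eq (by ring)
    linarith

end Crest.Agent.Lib.Tet
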