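import Crest.Agent.Lib.Tet.Coords
import Crest.Agent.Lib.Tet.Cut

/-!
The two families of needles covering the regular tetrahedron.
-/

set_option autoImplicit false

open MeasureTheory Set
open scoped ENNReal

noncomputable section

namespace Crest.Agent.Lib.Tet

/-- Direction of a line of the lower family. -/
def dirL (μ c : ℝ) : E3 := !₂[1, μ * (1 + c ^ 2), 2 * Real.sqrt 2 * μ * c]
/-- Radial axis of the lower family. -/
def axisL (c : ℝ) : E3 := !₂[0, c, Real.sqrt 2]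
/-- Side vector of the lower family. -/
def sideL : E3 := !₂[0, 1, 0]
/-- Apex of the lower family. -/
def apexL : E3 := 0

/-- Direction of a line of the upper family. -/
def dirU (μ c : ℝ) : E3 := !₂[-(μ * (1 + c ^ 2)), 1, 2 * Real.sqrt 2 * μ * c]
/-- Radial axis of the upper family. -/
def axisU (c : ℝ) : E3 := !₂[c, 0, -Real.sqrt 2]
/-- Side vector of the upper family. -/
def sideU : E3 := !₂[1, 0, 0]
/-- Apex of the upper family. -/
def apexU : E3 := !₂[0, 0, Real.sqrt 2]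

lemma dirL_ne (μ c : ℝ) : dirL μ c ≠ 0 := by
  intro h
  have := congrArg (fun v : E3 => v 0) h
  simp [dirL] at this

lemma dirU_ne (μ c : ℝ) : dirU μ c ≠ 0 := by
  intro h
  have := congrArg (fun v : E3 => v 1) h
  simp [dirU] at this

/-- The common value of the squared length minus one. -/
def sVal (μ c : ℝ) : ℝ := μ ^ 2 * (1 + 10 * c ^ 2 + c ^ 4)

lemma sq2 : Real.sqrt 2 ^ 2 = 2 := Real.sq_sqrt (by norm_num)

lemma norm_dirL_sq (μ c : ℝ) : ‖dirL μ c‖ ^ 2 = 1 + sVal μ c := by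
  rw [dirL, norm_vec3_sq, sVal]
  linear_combination (4 * μ ^ 2 * c ^ 2) * sq2

lemma norm_dirU_sq (μ c : ℝ) : ‖dirU μ c‖ ^ 2 = 1 + sVal μ c := by
  rw [dirU, norm_vec3_sq, sVal]
  linear_combination (4 * μ ^ 2 * c ^ 2) * sq2

lemma sVal_nonneg (μ c : ℝ) : 0 ≤ sVal μ c := by
  unfold sVal; positivity

lemma gram_axis_side_L (μ c : ℝ) :
    gram (proj (dirL μ c) (axisL c)) (proj (dirL μ c) sideL) = 2 / (1 + sVal μ c) := by
  have hpos : 0 < 1 + sVal μ c := by linarith [sVal_nonneg μ c]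
  rw [gram_proj (dirL_ne μ c), norm_dirL_sq, gram]
  have h1 : ‖axisL c‖ ^ 2 = c ^ 2 + 2 := by
    rw [axisL, norm_vec3_sq, sq2]; ring
  have h2 : ‖sideL‖ ^ 2 = 1 := by
    rw [sideL, norm_vec3_sq]; ring
  have h3 : inner ℝ (axisL c) sideL = c := by
    rw [axisL, sideL, inner_vec3]; ring
  have h4 : inner ℝ (axisL c) (dirL μ c) =
      c * (μ * (1 + c ^ 2)) + Real.sqrt 2 * (2 * Real.sqrt 2 * μ * c) := by
    rw [axisL, dirL, inner_vec3]; ring
  have h5 : inner ℝ sideL (dirL μ c) = μ * (1 + c ^ 2) := by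
    rw [sideL, dirL, inner_vec3]; ring
  rw [h1, h2, h3, h4, h5]
  have h6 : Real.sqrt 2 * (2 * Real.sqrt 2 * μ * c) = 4 * μ * c := by
    linear_combination (2 * μ * c) * sq2
  rw [h6]
  unfold sVal at hpos ⊢
  field_simp
  ring

lemma gram_axis_side_U (μ c : ℝ) :
    gram (proj (dirU μ c) (axisU c)) (proj (dirU μ c) sideU) = 2 / (1 + sVal μ c) := by
  have hpos : 0 < 1 + sVal μ c := by linarith [sVal_nonneg μ c]
  rw [gram_proj (dirU_ne μ c), norm_dirU_sq, gram]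
  have h1 : ‖axisU c‖ ^ 2 = c ^ 2 + 2 := by
    rw [axisU, norm_vec3_sq, neg_sq, sq2]; ring
  have h2 : ‖sideU‖ ^ 2 = 1 := by
    rw [sideU, norm_vec3_sq]; ring
  have h3 : inner ℝ (axisU c) sideU = c := by
    rw [axisU, sideU, inner_vec3]; ring
  have h4 : inner ℝ (axisU c) (dirU μ c) =
      c * (-(μ * (1 + c ^ 2))) + -Real.sqrt 2 * (2 * Real.sqrt 2 * μ * c) := by
    rw [axisU, dirU, inner_vec3]; ring
  have h5 : inner ℝ sideU (dirU μ c) = -(μ * (1 + c ^ 2)) := by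
    rw [sideU, dirU, inner_vec3]; ring
  rw [h1, h2, h3, h4, h5]
  have h6 : -Real.sqrt 2 * (2 * Real.sqrt 2 * μ * c) = -(4 * μ * c) := by
    linear_combination (-2 * μ * c) * sq2
  rw [h6]
  unfold sVal at hpos ⊢
  field_simp
  ring

/-- Upper bound for the radial extent on a cell. -/
def Rbar (μ h c : ℝ) : ℝ := 1 / 2 + μ ^ 2 * (c ^ 2 + c ^ 4) + 15 * μ ^ 3 + 6 * μ ^ 2 * h

lemma rhoM_le_Rbar {μ h c t : ℝ} (hc : |c| ≤ 1) (ht : |t| ≤ 1) (htc : |t - c| ≤ h) :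
    rhoM μ t ≤ Rbar μ h c := by
  have hc2 : c ^ 2 ≤ 1 := by rw [← sq_abs c]; exact pow_le_one₀ (abs_nonneg _) hc
  have ht2 : t ^ 2 ≤ 1 := by rw [← sq_abs t]; exact pow_le_one₀ (abs_nonneg _) ht
  have h1 : t ^ 2 - c ^ 2 ≤ 2 * h := by
    have e : t ^ 2 - c ^ 2 = (t - c) * (t + c) := by ring
    have h2 : |t + c| ≤ 2 := by
      refine (abs_add_le _ _).trans ?_; linarith
    have h3 : |(t - c) * (t + c)| ≤ h * 2 := by
      rw [abs_mul]; exact mul_le_mul htc h2 (abs_nonneg _) ((abs_nonneg _).trans htc)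
    rw [e]; linarith [le_abs_self ((t - c) * (t + c))]
  have h4 : t ^ 4 - c ^ 4 ≤ 4 * h := by
    have e : t ^ 4 - c ^ 4 = (t - c) * ((t + c) * (t ^ 2 + c ^ 2)) := by ring
    have h2 : |t + c| ≤ 2 := by
      refine (abs_add_le _ _).trans ?_; linarith
    have h5 : |t ^ 2 + c ^ 2| ≤ 2 := by
      rw [abs_of_nonneg (by positivity)]; linarith
    have h6 : |(t + c) * (t ^ 2 + c ^ 2)| ≤ 2 * 2 := by
      rw [abs_mul]; exact mul_le_mul h2 h5 (abs_nonneg _) (by norm_num)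
    have h3 : |(t - c) * ((t + c) * (t ^ 2 + c ^ 2))| ≤ h * (2 * 2) := by
      rw [abs_mul]; exact mul_le_mul htc h6 (abs_nonneg _) ((abs_nonneg _).trans htc)
    rw [e]; linarith [le_abs_self ((t - c) * ((t + c) * (t ^ 2 + c ^ 2)))]
  have h7 : μ ^ 2 * (t ^ 2 + t ^ 4) ≤ μ ^ 2 * (c ^ 2 + c ^ 4 + 6 * h) :=
    mul_le_mul_of_nonneg_left (by linarith) (sq_nonneg _)
  rw [rhoM, Rbar]
  have e : μ ^ 2 * (c ^ 2 + c ^ 4 + 6 * h) = μ ^ 2 * (c ^ 2 + c ^ 4) + 6 * μ ^ 2 * h := by ring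
  linarith

/-- Planar containment. -/
lemma needle_planar {r R u h m μ : ℝ} (hr : 0 ≤ r) (hrR : r ≤ R) (hu : |u| ≤ h) (hm : |m| ≤ μ)
    (hh : 0 ≤ h) :
    r + 2 * m * u ≤ R + 2 * μ * h ∧
      |u * (r + m * u)| ≤ h * ((r + 2 * m * u) + 5 * μ * h) := by
  have hμ : 0 ≤ μ := (abs_nonneg m).trans hm
  have hmu : |m * u| ≤ μ * h := by
    rw [abs_mul]; exact mul_le_mul hm hu (abs_nonneg _) hμ
  have hmu' := abs_le.1 hmu
  constructor
  · have e : r + 2 * m * u = r + 2 * (m * u) := by ring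
    rw [e]; linarith [hmu'.2]
  · rw [abs_mul]
    have h1 : |r + m * u| ≤ (r + 2 * m * u) + 5 * μ * h := by
      have e : r + 2 * m * u = r + 2 * (m * u) := by ring
      have e2 : 5 * μ * h = 5 * (μ * h) := by ring
      rw [e, e2, abs_le]
      constructor <;> linarith [hmu'.1, hmu'.2, mul_nonneg hμ hh]
    exact mul_le_mul hu h1 (abs_nonneg _) hh

/-- Membership in a lower needle. -/
theorem lower_mem {μ h c x y ζ r t : ℝ} (hμ : 0 ≤ μ) (hh : 0 < h) (hc : |c| ≤ 1) (ht : |t| ≤ 1)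
    (htc : |t - c| ≤ h) (hx : |x| ≤ 1) (hr : 0 ≤ r) (hrr : r ≤ rhoM μ t)
    (h1 : y = t * r + μ * x * (1 + t ^ 2)) (h2 : ζ = r + 2 * μ * x * t)
    (hpos : 0 < Rbar μ h c + 2 * μ * h + 5 * μ * h)
    {p : E3} (hp0 : p 0 = x) (hp1 : p 1 = y) (hp2 : p 2 = Real.sqrt 2 * ζ) :
    p ∈ triCyl (unitOf (dirL μ c)) (needleP (dirL μ c) apexL (axisL c) (5 * μ * h))
      (needleQ (dirL μ c) apexL (axisL c) sideL (5 * μ * h) (Rbar μ h c + 2 * μ * h) h)
      (needleR (dirL μ c) apexL (axisL c) sideL (5 * μ * h) (Rbar μ h c + 2 * μ * h) h) := by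
  set u := t - c with hu
  set m := μ * x with hm
  have hmle : |m| ≤ μ := by
    rw [hm, abs_mul, abs_of_nonneg hμ]
    exact mul_le_of_le_one_right hμ hx
  obtain ⟨hA, hB⟩ := needle_planar hr (hrr.trans (rhoM_le_Rbar hc ht htc)) htc hmle hh.le
  have hmem := needle_mem (dirL_ne μ c) apexL (axisL c) sideL hpos hh (x := x) hA hB
  have hrep : p = apexL + x • dirL μ c + (r + 2 * m * u) • axisL c +
      (u * (r + m * u)) • sideL := by
    have ht' : t = c + u := by rw [hu]; ring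
    apply ext3
    · simp [apexL, dirL, axisL, sideL, hp0]
    · simp [apexL, dirL, axisL, sideL, hp1, h1]
      rw [ht', hm]; ring
    · simp [apexL, dirL, axisL, sideL, hp2, h2]
      rw [ht', hm]; ring
  rw [hrep]
  exact hmem

/-- Membership in an upper needle. -/
theorem upper_mem {μ h c x y ζ r t : ℝ} (hμ : 0 ≤ μ) (hh : 0 < h) (hc : |c| ≤ 1) (ht : |t| ≤ 1)
    (htc : |t - c| ≤ h) (hy : |y| ≤ 1) (hr : 0 ≤ r) (hrr : r ≤ rhoM μ t)
    (h1 : x = t * r + (-μ) * y * (1 + t ^ 2)) (h2 : 1 - ζ = r + 2 * (-μ) * y * t)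
    (hpos : 0 < Rbar μ h c + 2 * μ * h + 5 * μ * h)
    {p : E3} (hp0 : p 0 = x) (hp1 : p 1 = y) (hp2 : p 2 = Real.sqrt 2 * ζ) :
    p ∈ triCyl (unitOf (dirU μ c)) (needleP (dirU μ c) apexU (axisU c) (5 * μ * h))
      (needleQ (dirU μ c) apexU (axisU c) sideU (5 * μ * h) (Rbar μ h c + 2 * μ * h) h)
      (needleR (dirU μ c) apexU (axisU c) sideU (5 * μ * h) (Rbar μ h c + 2 * μ * h) h) := by
  set u := t - c with hu
  set m := (-μ) * y with hm
  have hmle : |m| ≤ μ := by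
    rw [hm, abs_mul, abs_neg, abs_of_nonneg hμ]
    exact mul_le_of_le_one_right hμ hy
  obtain ⟨hA, hB⟩ := needle_planar hr (hrr.trans (rhoM_le_Rbar hc ht htc)) htc hmle hh.le
  have hmem := needle_mem (dirU_ne μ c) apexU (axisU c) sideU hpos hh (x := y) hA hB
  have hrep : p = apexU + y • dirU μ c + (r + 2 * m * u) • axisU c +
      (u * (r + m * u)) • sideU := by
    have ht' : t = c + u := by rw [hu]; ring
    have hζ : ζ = 1 - (r + 2 * (-μ) * y * t) := by linarith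
    apply ext3
    · simp [apexU, dirU, axisU, sideU, hp0, h1]
      rw [ht', hm]; ring
    · simp [apexU, dirU, axisU, sideU, hp1]
    · simp [apexU, dirU, axisU, sideU, hp2, hζ]
      rw [ht', hm]; ring
  rw [hrep]
  exact hmem

end Crest.Agent.Lib.Tet
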