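import Crest.Agent.Lib.Tet.Proj

/-!
Projections of bounded sets have finite area.
-/

set_option autoImplicit false

open MeasureTheory Set
open scoped ENNReal

noncomputable section

namespace Crest.Agent.Lib.Tet

/-- An orthonormal basis of `ℝ³` completing a unit vector. -/
lemma exists_onb_of_unit {v : E3} (hv : ‖v‖ = 1) :
    ∃ e : OrthonormalBasis (Fin 3) ℝ E3, e 2 = v := by
  have hon : Orthonormal ℝ (({2} : Set (Fin 3)).restrict (fun _ => v)) := by
    rw [orthonormal_iff_ite]
    rintro ⟨i, hi⟩ ⟨j, hj⟩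
    rw [mem_singleton_iff] at hi hj
    subst hi hj
    have : ({2} : Set (Fin 3)).restrict (fun _ => v) ⟨2, rfl⟩ = v := rfl
    simp [this, hv]
  obtain ⟨e, he⟩ := hon.exists_orthonormalBasis_extension_of_card_eq (by simp)
  exact ⟨e, he 2 rfl⟩

/-- A projection along a unit vector in coordinates of a completing basis. -/
lemma proj_eq_two {v : E3} (e : OrthonormalBasis (Fin 3) ℝ E3) (he : e 2 = v) (y : E3) :
    y - inner ℝ y v • v = inner ℝ (e 0) y • e 0 + inner ℝ (e 1) y • e 1 := by
  have h := e.sum_repr' y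
  rw [Fin.sum_univ_three, he, real_inner_comm y v] at h
  nth_rewrite 1 [← h]
  abel

/-- Projections of bounded sets have finite area. -/
theorem proj_image_lt_top {v : E3} (hv : ‖v‖ = 1) {S : Set E3} (hS : Bornology.IsBounded S) :
    μHE[2] ((fun y => y - inner ℝ y v • v) '' S) < ⊤ := by
  obtain ⟨e, he⟩ := exists_onb_of_unit hv
  obtain ⟨R, hR, hSR⟩ := hS.subset_closedBall_lt 0 0
  have hn : ∀ i, ‖e i‖ = 1 := fun i => e.orthonormal.1 i
  have h01 : inner ℝ (e 0) (e 1) = (0 : ℝ) := e.orthonormal.2 (by decide)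
  have hg : 0 < gram ((2 * R) • e 0) ((2 * R) • e 1) := by
    simp only [gram, norm_smul, hn, inner_smul_left, inner_smul_right, h01]
    simp
    positivity
  refine lt_of_le_of_lt (measure_mono (t := {x | ∃ s ∈ Icc (0 : ℝ) 1, ∃ t ∈ Icc (0 : ℝ) 1,
    x = (-R) • e 0 + (-R) • e 1 + s • ((2 * R) • e 0) + t • ((2 * R) • e 1)}) ?_) ?_
  · rintro _ ⟨y, hy, rfl⟩
    have hyR : ‖y‖ ≤ R := by simpa using hSR hy
    have hi : ∀ i, |inner ℝ (e i) y| ≤ R := fun i => by
      have := abs_real_inner_le_norm (e i) y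
      rw [hn, one_mul] at this
      exact this.trans hyR
    have hne : R ≠ 0 := hR.ne'
    refine ⟨(inner ℝ (e 0) y + R) / (2 * R), ?_, (inner ℝ (e 1) y + R) / (2 * R), ?_, ?_⟩
    · have := abs_le.1 (hi 0)
      constructor
      · apply div_nonneg <;> linarith
      · rw [div_le_one (by positivity)]; linarith
    · have := abs_le.1 (hi 1)
      constructor
      · apply div_nonneg <;> linarith
      · rw [div_le_one (by positivity)]; linarith
    · simp only
      rw [proj_eq_two e he, smul_smul, smul_smul]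
      have e1 : (inner ℝ (e 0) y + R) / (2 * R) * (2 * R) = inner ℝ (e 0) y + R := by
        field_simp
      have e2 : (inner ℝ (e 1) y + R) / (2 * R) * (2 * R) = inner ℝ (e 1) y + R := by
        field_simp
      rw [e1, e2]
      module
  · rw [area_parallelogram _ _ _ hg]
    exact ENNReal.ofReal_lt_top

/-- The normalising constant between `μHE[2]` and `μH[2]`. -/
def hausCst : ℝ := ((Measure.addHaarScalarFactor (volume : Measure (EuclideanSpace ℝ (Fin 2)))
  (μH[((2 : ℕ) : ℝ)]) : NNReal) : ℝ)

lemma hausCst_pos : 0 < hausCst := by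
  have := Measure.addHaarScalarFactor_volume_hausdorffMeasure_ne_zero 2
  exact NNReal.coe_pos.2 (pos_iff_ne_zero.2 this)

lemma toReal_muHE (S : Set E3) : (μHE[2] S).toReal = hausCst * (μH[(2 : ℝ)] S).toReal := by
  rw [Measure.euclideanHausdorffMeasure_def, Measure.smul_apply, ENNReal.toReal_smul, hausCst]
  simp only [Nat.cast_ofNat]
  rfl

end Crest.Agent.Lib.Tet
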