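import Crest.Agent.Lib.Tet.Area

/-!
Orthogonal projection along a vector and thin triangular cylinders ("needles").
-/

set_option autoImplicit false

open MeasureTheory Set
open scoped ENNReal

noncomputable section

namespace Crest.Agent.Lib.Tet

variable {X : Type*} [NormedAddCommGroup X] [InnerProductSpace ℝ X]

/-- The orthogonal projection onto `D^⊥`. -/
def proj (D v : X) : X := v - (inner ℝ v D / ‖D‖ ^ 2) • D

/-- The unit vector along `D`. -/
def unitOf (D : X) : X := ‖D‖⁻¹ • D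

lemma norm_unitOf {D : X} (hD : D ≠ 0) : ‖unitOf D‖ = 1 := by
  have : ‖D‖ ≠ 0 := norm_ne_zero_iff.2 hD
  rw [unitOf, norm_smul, norm_inv, norm_norm]; field_simp

lemma proj_add (D a b : X) : proj D (a + b) = proj D a + proj D b := by
  simp only [proj, inner_add_left, add_div, add_smul]; abel

lemma proj_sub (D a b : X) : proj D (a - b) = proj D a - proj D b := by
  simp only [proj, inner_sub_left, sub_div, sub_smul]; abel

lemma proj_smul (D a : X) (c : ℝ) : proj D (c • a) = c • proj D a := by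
  simp only [proj, inner_smul_left, smul_sub, smul_smul]
  congr 2
  simp; ring

lemma proj_self {D : X} (hD : D ≠ 0) : proj D D = 0 := by
  have : ‖D‖ ≠ 0 := norm_ne_zero_iff.2 hD
  simp only [proj, real_inner_self_eq_norm_sq]
  rw [div_self (pow_ne_zero 2 this), one_smul, sub_self]

lemma inner_proj_self {D : X} (hD : D ≠ 0) (v : X) : inner ℝ (proj D v) D = (0 : ℝ) := by
  have : ‖D‖ ≠ 0 := norm_ne_zero_iff.2 hD
  simp only [proj, inner_sub_left, inner_smul_left, real_inner_self_eq_norm_sq]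
  simp
  field_simp
  ring

lemma inner_proj_unitOf {D : X} (hD : D ≠ 0) (v : X) : inner ℝ (proj D v) (unitOf D) = (0 : ℝ) := by
  rw [unitOf, inner_smul_right, inner_proj_self hD]; simp

lemma eq_proj_add_unitOf {D : X} (hD : D ≠ 0) (v : X) :
    v = proj D v + (inner ℝ v (unitOf D) : ℝ) • unitOf D := by
  have : ‖D‖ ≠ 0 := norm_ne_zero_iff.2 hD
  simp only [proj, unitOf, inner_smul_right, smul_smul]
  have h : (inner ℝ v D / ‖D‖ ^ 2 : ℝ) = ‖D‖⁻¹ * inner ℝ v D * ‖D‖⁻¹ := by
    field_simp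
  simp [h]

lemma inner_proj_proj {D : X} (hD : D ≠ 0) (a b : X) :
    inner ℝ (proj D a) (proj D b) =
      (inner ℝ a b : ℝ) - inner ℝ a D * inner ℝ b D / ‖D‖ ^ 2 := by
  have : ‖D‖ ≠ 0 := norm_ne_zero_iff.2 hD
  simp only [proj, inner_sub_left, inner_sub_right, inner_smul_left, inner_smul_right,
    real_inner_self_eq_norm_sq]
  simp only [conj_trivial]
  have h2 : (inner ℝ D b : ℝ) = inner ℝ b D := real_inner_comm _ _
  rw [h2]
  field_simp
  ring

lemma norm_proj_sq {D : X} (hD : D ≠ 0) (a : X) :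
    ‖proj D a‖ ^ 2 = ‖a‖ ^ 2 - (inner ℝ a D : ℝ) ^ 2 / ‖D‖ ^ 2 := by
  rw [← real_inner_self_eq_norm_sq, inner_proj_proj hD, real_inner_self_eq_norm_sq]
  ring

/-- Gram determinant of projections. -/
lemma gram_proj {D : X} (hD : D ≠ 0) (a b : X) :
    gram (proj D a) (proj D b) = gram a b -
      (‖a‖ ^ 2 * (inner ℝ b D : ℝ) ^ 2 + ‖b‖ ^ 2 * (inner ℝ a D : ℝ) ^ 2
        - 2 * inner ℝ a b * inner ℝ a D * inner ℝ b D) / ‖D‖ ^ 2 := by
  have : ‖D‖ ≠ 0 := norm_ne_zero_iff.2 hD
  simp only [gram, norm_proj_sq hD, inner_proj_proj hD]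
  field_simp
  ring

/-- Gram determinant of two linear combinations. -/
lemma gram_comb (a b : X) (α β γ δ : ℝ) :
    gram (α • a + β • b) (γ • a + δ • b) = (α * δ - β * γ) ^ 2 * gram a b := by
  simp only [gram]
  rw [@norm_add_sq_real, @norm_add_sq_real, norm_smul, norm_smul, norm_smul, norm_smul]
  simp only [inner_add_left, inner_add_right, inner_smul_left, inner_smul_right, conj_trivial,
    real_inner_self_eq_norm_sq, mul_pow, Real.norm_eq_abs, sq_abs]
  rw [real_inner_comm a b]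
  ring

/-- The three vertices of the base of a needle: in `(X, Y)`-coordinates with respect to `A, B`
they are `(-κ, 0)` and `(Xm, ±h(Xm + κ))`, shifted by `p₀` and projected along `D`. -/
def needleP (D p₀ A : X) (κ : ℝ) : X := proj D (p₀ - κ • A)

/-- Second vertex of the needle base. -/
def needleQ (D p₀ A B : X) (κ Xm h : ℝ) : X := proj D (p₀ + Xm • A + (h * (Xm + κ)) • B)

/-- Third vertex of the needle base. -/
def needleR (D p₀ A B : X) (κ Xm h : ℝ) : X := proj D (p₀ + Xm • A - (h * (Xm + κ)) • B)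

/-- The cylinder over a triangle with direction `u`. -/
def triCyl (u p q r : X) : Set X :=
  {x : X | ∃ b ∈ convexHull ℝ ({p, q, r} : Set X), ∃ t : ℝ, x = b + t • u}

/-- Membership in a needle: a point `p₀ + x D + X A + Y B` with `(X, Y)` in the planar triangle
with vertices `(-κ, 0)`, `(Xm, ±h(Xm+κ))`. -/
theorem needle_mem {D : X} (hD : D ≠ 0) (p₀ A B : X) {κ Xm h : ℝ} (hℓ : 0 < Xm + κ) (hh : 0 < h)
    {x U V : ℝ} (hU : U ≤ Xm) (hV : |V| ≤ h * (U + κ)) :
    p₀ + x • D + U • A + V • B ∈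
      triCyl (unitOf D) (needleP D p₀ A κ) (needleQ D p₀ A B κ Xm h) (needleR D p₀ A B κ Xm h) := by
  set ℓ := Xm + κ with hℓdef
  have hV' := abs_le.1 hV
  set w := p₀ + x • D + U • A + V • B with hw
  refine ⟨proj D w, ?_, inner ℝ w (unitOf D), eq_proj_add_unitOf hD w⟩
  -- barycentric coordinates
  set w₁ := (Xm - U) / ℓ with hw₁
  set w₂ := ((U + κ) / ℓ + V / (h * ℓ)) / 2 with hw₂
  set w₃ := ((U + κ) / ℓ - V / (h * ℓ)) / 2 with hw₃
  have hUκ : 0 ≤ U + κ := by
    by_contra hneg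
    have : h * (U + κ) < 0 := mul_neg_of_pos_of_neg hh (not_le.1 hneg)
    linarith [abs_nonneg V]
  have h₁ : 0 ≤ w₁ := div_nonneg (by linarith) hℓ.le
  have key : V / (h * ℓ) = (V / h) / ℓ := by field_simp
  have hVh₁ : V / h ≤ U + κ := by rw [div_le_iff₀ hh]; nlinarith
  have hVh₂ : -(U + κ) ≤ V / h := by rw [le_div_iff₀ hh]; nlinarith
  have h₂ : 0 ≤ w₂ := by
    rw [hw₂, key, ← add_div, div_div]
    exact div_nonneg (by linarith) (by positivity)
  have h₃ : 0 ≤ w₃ := by
    rw [hw₃, key, ← sub_div, div_div]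
    exact div_nonneg (by linarith) (by positivity)
  have hsum : w₁ + w₂ + w₃ = 1 := by
    rw [hw₁, hw₂, hw₃]; field_simp; rw [hℓdef]; ring
  have hU' : w₁ * (-κ) + (w₂ + w₃) * Xm = U := by
    rw [hw₁, hw₂, hw₃]; field_simp; rw [hℓdef]; ring
  have hV'' : (w₂ - w₃) * (h * ℓ) = V := by
    rw [hw₂, hw₃]; field_simp; ring
  have hmem := mem_triangle (needleP D p₀ A κ) (needleQ D p₀ A B κ Xm h) (needleR D p₀ A B κ Xm h)
    h₁ h₂ h₃ hsum
  have hproj : proj D w = w₁ • needleP D p₀ A κ + w₂ • needleQ D p₀ A B κ Xm h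
      + w₃ • needleR D p₀ A B κ Xm h := by
    have e1 : w = (p₀ + U • A + V • B) + x • D := by rw [hw]; abel
    have e2 : proj D w = proj D (p₀ + U • A + V • B) := by
      rw [e1, proj_add, proj_smul, proj_self hD, smul_zero, add_zero]
    rw [e2, needleP, needleQ, needleR, ← proj_smul, ← proj_smul, ← proj_smul, ← proj_add,
      ← proj_add]
    congr 1
    have e3 : p₀ + U • A + V • B = (w₁ + w₂ + w₃) • p₀ + (w₁ * (-κ) + (w₂ + w₃) * Xm) • A
        + ((w₂ - w₃) * (h * ℓ)) • B := by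
      rw [hsum, hU', hV'', one_smul]
    rw [e3]
    module
  rw [hproj]
  exact hmem

/-- Area of the base of a needle. -/
theorem needle_area {D : X} [MeasurableSpace X] [BorelSpace X] (p₀ A B : X)
    {κ Xm h : ℝ} (hℓ : 0 < Xm + κ) (hh : 0 < h) (hG : 0 < gram (proj D A) (proj D B)) :
    μHE[2] (convexHull ℝ ({needleP D p₀ A κ, needleQ D p₀ A B κ Xm h,
        needleR D p₀ A B κ Xm h} : Set X)) =
      ENNReal.ofReal (h * (Xm + κ) ^ 2 * Real.sqrt (gram (proj D A) (proj D B))) := by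
  set ℓ := Xm + κ with hℓdef
  have e1 : needleQ D p₀ A B κ Xm h - needleP D p₀ A κ =
      ℓ • proj D A + (h * ℓ) • proj D B := by
    rw [needleQ, needleP, ← proj_sub, ← proj_smul, ← proj_smul, ← proj_add]
    congr 1
    rw [hℓdef]
    module
  have e2 : needleR D p₀ A B κ Xm h - needleP D p₀ A κ =
      ℓ • proj D A + (-(h * ℓ)) • proj D B := by
    rw [needleR, needleP, ← proj_sub, ← proj_smul, ← proj_smul, ← proj_add]
    congr 1
    rw [hℓdef]
    module
  have hgram : gram (needleQ D p₀ A B κ Xm h - needleP D p₀ A κ)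
      (needleR D p₀ A B κ Xm h - needleP D p₀ A κ) =
      (2 * h * ℓ ^ 2) ^ 2 * gram (proj D A) (proj D B) := by
    rw [e1, e2, gram_comb]
    ring
  have hpos : 0 < gram (needleQ D p₀ A B κ Xm h - needleP D p₀ A κ)
      (needleR D p₀ A B κ Xm h - needleP D p₀ A κ) := by
    rw [hgram]; positivity
  rw [area_triangle _ _ _ hpos, hgram, Real.sqrt_mul (by positivity), Real.sqrt_sq (by positivity)]
  congr 1
  ring

end Crest.Agent.Lib.Tet
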