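import Crest.Agent.Lib.Tet.Cover

/-!
Numerical bound for the total area of the needles.
-/

set_option autoImplicit false

open MeasureTheory Set
open scoped ENNReal

noncomputable section

namespace Crest.Agent.Lib.Tet

/-- The numerical heart: the total area is below the target. -/
lemma numeric_bound {ε h : ℝ} (hε : 0 < ε) (hε' : ε ≤ 1 / 2000) (hh : 0 ≤ h) (hhε : h ≤ ε ^ 2) :
    1 / 2 - (ε / 2) ^ 2 / 15 + 2 * bigE (ε / 2) h + (ε / 2) ^ 2 * h ^ 2 / 6 <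
      1 / 2 - 13 / 6000 * ε ^ 2 := by
  have e2 : 0 < ε ^ 2 := by positivity
  have eq2 : ε ^ 2 ≤ 1 / 4000000 := by
    have := pow_le_pow_left₀ hε.le hε' 2
    norm_num at this
    linarith
  have e3 : ε ^ 3 ≤ ε ^ 2 * (1 / 2000) := by
    have : ε ^ 3 = ε ^ 2 * ε := by ring
    rw [this]; exact mul_le_mul_of_nonneg_left hε' e2.le
  have e4 : ε ^ 4 ≤ ε ^ 2 * (1 / 4000000) := by
    have : ε ^ 4 = ε ^ 2 * ε ^ 2 := by ring
    rw [this]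
    exact mul_le_mul_of_nonneg_left eq2 e2.le
  have hE1 : eVal (ε / 2) h ≤ 6 * ε ^ 3 := by
    have h1 : 6 * (ε / 2) ^ 2 * h ≤ 6 * (ε / 2) ^ 2 * ε ^ 2 :=
      mul_le_mul_of_nonneg_left hhε (by positivity)
    have h2 : 7 * (ε / 2) * h ≤ 7 * (ε / 2) * ε ^ 2 :=
      mul_le_mul_of_nonneg_left hhε (by positivity)
    have e5 : 6 * (ε / 2) ^ 2 * ε ^ 2 = 3 / 2 * ε ^ 4 := by ring
    have e6 : 7 * (ε / 2) * ε ^ 2 = 7 / 2 * ε ^ 3 := by ring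
    have e7 : 15 * (ε / 2) ^ 3 = 15 / 8 * ε ^ 3 := by ring
    have e8 : ε ^ 4 ≤ ε ^ 3 * (1 / 2000) := by
      have : ε ^ 4 = ε ^ 3 * ε := by ring
      rw [this]
      exact mul_le_mul_of_nonneg_left hε' (by positivity)
    have e3p : 0 ≤ ε ^ 3 := by positivity
    rw [eVal]
    rw [e5] at h1
    rw [e6] at h2
    rw [e7]
    linarith
  have hE0 : 0 ≤ eVal (ε / 2) h := by
    rw [eVal]; positivity
  have hE2 : 2 * (ε / 2) ^ 2 + eVal (ε / 2) h ≤ ε ^ 2 := by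
    have : 2 * (ε / 2) ^ 2 = 1 / 2 * ε ^ 2 := by ring
    rw [this]; linarith
  have hE3 : (2 * (ε / 2) ^ 2 + eVal (ε / 2) h) ^ 2 ≤ ε ^ 4 := by
    have := pow_le_pow_left₀ (by positivity) hE2 2
    have e9 : (ε ^ 2) ^ 2 = ε ^ 4 := by ring
    linarith
  have hE4 : 144 * (ε / 2) ^ 4 = 9 * ε ^ 4 := by ring
  have hbig : bigE (ε / 2) h ≤ 6 * ε ^ 3 + 10 * ε ^ 4 := by
    rw [bigE, hE4]; linarith
  have hlast : (ε / 2) ^ 2 * h ^ 2 / 6 ≤ ε ^ 4 := by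
    have h1 : h ^ 2 ≤ (ε ^ 2) ^ 2 := pow_le_pow_left₀ hh hhε 2
    have h2 : (ε ^ 2) ^ 2 ≤ 1 := by
      have : ε ^ 2 ≤ 1 := by linarith
      exact pow_le_one₀ (by positivity) this
    have h3 : h ^ 2 ≤ 1 := h1.trans h2
    have h4 : (ε / 2) ^ 2 * h ^ 2 ≤ (ε / 2) ^ 2 * (ε ^ 2) ^ 2 :=
      mul_le_mul_of_nonneg_left h1 (by positivity)
    have h5 : (ε / 2) ^ 2 * (ε ^ 2) ^ 2 = ε ^ 4 * (ε ^ 2 / 4) := by ring
    have h6 : ε ^ 4 * (ε ^ 2 / 4) ≤ ε ^ 4 * 1 := by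
      apply mul_le_mul_of_nonneg_left _ (by positivity)
      linarith
    have h7 : 0 ≤ ε ^ 4 := by positivity
    linarith
  have e10 : (ε / 2) ^ 2 / 15 = ε ^ 2 / 60 := by ring
  rw [e10]
  nlinarith

/-- The total area of the cover at a given scale. -/
theorem total_area_lt {ε : ℝ} {n : ℕ} (hε : 0 < ε) (hε' : ε ≤ 1 / 2000) (hn : 0 < n)
    (hnε : (1 : ℝ) / n ≤ ε ^ 2) :
    ∑ k ∈ Finset.range n, 2 * aVal (ε / 2) (1 / n) (cellC n k) <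
      Real.sqrt 2 * (1 / 2 - 13 / 6000 * ε ^ 2) := by
  have h1 := sum_aVal_le (μ := ε / 2) (n := n) (by positivity) (by linarith) hn
  refine h1.trans_lt ?_
  apply mul_lt_mul_of_pos_left _ sqrt2_pos
  exact numeric_bound hε hε' (by positivity) hnε

end Crest.Agent.Lib.Tet
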