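import Crest.Agent.Lib.Tet.Cover

/-!
The least area of an orthogonal projection of the standard regular tetrahedron is `√2`.
-/

set_option autoImplicit false

open MeasureTheory Set
open scoped ENNReal

noncomputable section

namespace Crest.Agent.Lib.Tet

/-- The determinant of three vectors of `ℝ³`. -/
def det3 (a b c : E3) : ℝ :=
  a 0 * (b 1 * c 2 - b 2 * c 1) - a 1 * (b 0 * c 2 - b 2 * c 0) + a 2 * (b 0 * c 1 - b 1 * c 0)

lemma gram_proj_unit {v : E3} (hv : ‖v‖ = 1) (a b : E3) :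
    gram (proj v a) (proj v b) = det3 a b v ^ 2 := by
  have hv0 : v ≠ 0 := by
    intro h; rw [h, norm_zero] at hv; norm_num at hv
  have hv2 : v 0 ^ 2 + v 1 ^ 2 + v 2 ^ 2 = 1 := by
    rw [← norm_coords_sq, hv]; norm_num
  rw [gram_proj hv0, hv, gram, norm_coords_sq, norm_coords_sq, inner_coords, inner_coords,
    inner_coords, det3]
  simp only [one_pow, div_one]
  linear_combination
    (-((a 0 ^ 2 + a 1 ^ 2 + a 2 ^ 2) * (b 0 ^ 2 + b 1 ^ 2 + b 2 ^ 2) -
      (a 0 * b 0 + a 1 * b 1 + a 2 * b 2) ^ 2)) * hv2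

/-- The map of the statements is the projection along a unit vector. -/
lemma piv_eq_proj {v : E3} (hv : ‖v‖ = 1) : (fun y : E3 => y - inner ℝ y v • v) = proj v := by
  funext y
  simp [proj, hv]

/-- The projection as a linear map. -/
def projL (v : E3) : E3 →ₗ[ℝ] E3 where
  toFun y := y - inner ℝ y v • v
  map_add' x y := by
    simp only [inner_add_left, add_smul]; abel
  map_smul' c x := by
    simp only [inner_smul_left, smul_sub, smul_smul]
    simp

lemma projL_coe (v : E3) : (projL v : E3 → E3) = fun y => y - inner ℝ y v • v := rfl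

/-- The image of the tetrahedron under a projection. -/
abbrev tetProj (v : E3) : Set E3 := (fun y : E3 => y - inner ℝ y v • v) '' tetK

lemma tetProj_convex (v : E3) : Convex ℝ (tetProj v) := by
  rw [tetProj, ← projL_coe]
  exact (convex_convexHull ℝ _).linear_image (projL v)

lemma proj_mem_tetProj {v : E3} (hv : ‖v‖ = 1) {x : E3} (hx : x ∈ tetK) : proj v x ∈ tetProj v := by
  rw [tetProj, piv_eq_proj hv]
  exact mem_image_of_mem _ hx

lemma triangle_sub_tetProj {v : E3} (hv : ‖v‖ = 1) {V V' P : E3} (hV : V ∈ tetK) (hV' : V' ∈ tetK)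
    (hP : P ∈ tetK) :
    convexHull ℝ ({proj v V, proj v V', proj v P} : Set E3) ⊆ tetProj v := by
  apply convexHull_min _ (tetProj_convex v)
  rintro x (rfl | rfl | rfl)
  · exact proj_mem_tetProj hv hV
  · exact proj_mem_tetProj hv hV'
  · exact proj_mem_tetProj hv hP

lemma gram_triangle {v : E3} (hv : ‖v‖ = 1) (V V' P : E3) :
    gram (proj v V' - proj v V) (proj v P - proj v V) = det3 (V' - V) (P - V) v ^ 2 := by
  rw [← proj_sub, ← proj_sub, gram_proj_unit hv]

/-- A single projected triangle inside the projection. -/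
lemma single_triangle {v : E3} (hv : ‖v‖ = 1) {V V' P : E3} (hV : V ∈ tetK) (hV' : V' ∈ tetK)
    (hP : P ∈ tetK) :
    ENNReal.ofReal (|det3 (V' - V) (P - V) v| / 2) ≤ μHE[2] (tetProj v) := by
  by_cases h0 : det3 (V' - V) (P - V) v = 0
  · simp [h0]
  · have hg : 0 < gram (proj v V' - proj v V) (proj v P - proj v V) := by
      rw [gram_triangle hv]; positivity
    have h1 := area_triangle (proj v V) (proj v V') (proj v P) hg
    rw [gram_triangle hv, Real.sqrt_sq_eq_abs] at h1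
    rw [← h1]
    exact measure_mono (triangle_sub_tetProj hv hV hV' hP)

/-- The affine functional vanishing on the line through the images of `V, V'`. -/
def lineFun (v W W' : E3) (y : E3) : ℝ := det3 (W' - W) (y - W) v

lemma lineFun_continuous (v W W' : E3) : Continuous (lineFun v W W') := by
  unfold lineFun det3
  have h : ∀ i : Fin 3, Continuous fun y : E3 => (y - W) i := fun i => by
    have : (fun y : E3 => (y - W) i) = fun y : E3 => y i - W i := by
      funext y; simp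
    rw [this]
    exact (continuous_apply i |>.comp (PiLp.continuous_ofLp 2 _)).sub continuous_const
  have h0 := h 0
  have h1 := h 1
  have h2 := h 2
  fun_prop

lemma lineFun_param (v W W' A : E3) (s₀ s₁ : ℝ) :
    lineFun v W W' (W + s₀ • (W' - W) + s₁ • (A - W)) = s₁ * lineFun v W W' A := by
  simp only [lineFun, det3]
  simp
  ring

lemma lineFun_proj {v : E3} (hv : ‖v‖ = 1) (V V' P : E3) :
    lineFun v (proj v V) (proj v V') (proj v P) = det3 (V' - V) (P - V) v := by
  have hv0 : v ≠ 0 := by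
    intro h; rw [h, norm_zero] at hv; norm_num at hv
  have hp : ∀ y : E3, proj v y = y - inner ℝ y v • v := by
    intro y; rw [← piv_eq_proj hv]
  simp only [lineFun, det3, hp]
  simp
  ring

/-- Null sets in the parameter simplex. -/
lemma volume_stdTri_diff : volume (stdTri \ {s : Fin 2 → ℝ | s 1 = 0}) = ENNReal.ofReal (1 / 2) := by
  have h0 : volume {s : Fin 2 → ℝ | s 1 = 0} = 0 := by
    have hne : LinearMap.ker (LinearMap.proj (R := ℝ) (φ := fun _ : Fin 2 => ℝ) 1) ≠ ⊤ := by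
      intro h
      have hmem : (Pi.single 1 (1 : ℝ) : Fin 2 → ℝ) ∈
          LinearMap.ker (LinearMap.proj (R := ℝ) (φ := fun _ : Fin 2 => ℝ) 1) := by
        rw [h]; exact Submodule.mem_top
      simp at hmem
    have := Measure.addHaar_submodule (volume : Measure (Fin 2 → ℝ)) _ hne
    refine le_antisymm (le_trans (measure_mono ?_) this.le) bot_le
    intro s hs
    simpa using hs
  rw [measure_sdiff_null h0, volume_stdTri]

/-- Two triangles on opposite sides of a common edge. -/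
lemma two_triangles {C : Set E3} {W W' A B : E3} (ℓ : E3 → ℝ) (hℓ : Continuous ℓ)
    (hA : ∀ s₀ s₁ : ℝ, ℓ (W + s₀ • (W' - W) + s₁ • (A - W)) = s₁ * ℓ A)
    (hB : ∀ s₀ s₁ : ℝ, ℓ (W + s₀ • (W' - W) + s₁ • (B - W)) = s₁ * ℓ B)
    (hAB : ℓ A * ℓ B < 0)
    (hT₁ : convexHull ℝ ({W, W', A} : Set E3) ⊆ C) (hT₂ : convexHull ℝ ({W, W', B} : Set E3) ⊆ C)
    (hg₁ : 0 < gram (W' - W) (A - W)) (hg₂ : 0 < gram (W' - W) (B - W)) :
    ENNReal.ofReal (Real.sqrt (gram (W' - W) (A - W)) / 2) +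
      ENNReal.ofReal (Real.sqrt (gram (W' - W) (B - W)) / 2) ≤ μHE[2] C := by
  set H : Set E3 := {y | 0 < ℓ A * ℓ y} with hH
  have hHm : MeasurableSet H := (isOpen_lt continuous_const (continuous_const.mul hℓ)).measurableSet
  rw [← measure_inter_add_sdiff C hHm]
  apply add_le_add
  · -- the part of the first triangle with positive parameter
    have h1 : (fun s : Fin 2 → ℝ => W + s 0 • (W' - W) + s 1 • (A - W)) ''
        (stdTri \ {s : Fin 2 → ℝ | s 1 = 0}) ⊆ C ∩ H := by
      rintro _ ⟨s, ⟨hs, hs1⟩, rfl⟩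
      refine ⟨hT₁ ?_, ?_⟩
      · rw [convexHull_triangle_eq]
        exact ⟨s, hs, rfl⟩
      · have hpos : 0 < s 1 := lt_of_le_of_ne hs.2.1 (Ne.symm hs1)
        simp only [hH, mem_ofPred_eq]
        rw [hA]
        have hne : ℓ A ≠ 0 := by
          intro h; rw [h] at hAB; simp at hAB
        have := mul_self_pos.2 hne
        nlinarith
    refine le_trans (le_of_eq ?_) (measure_mono h1)
    rw [area_affine_image _ _ _ hg₁, volume_stdTri_diff, ← ENNReal.ofReal_mul (Real.sqrt_nonneg _)]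
    congr 1
    ring
  · have h2 : convexHull ℝ ({W, W', B} : Set E3) ⊆ C \ H := by
      rw [convexHull_triangle_eq]
      rintro _ ⟨s, hs, rfl⟩
      refine ⟨hT₂ ?_, ?_⟩
      · rw [convexHull_triangle_eq]
        exact ⟨s, hs, rfl⟩
      · simp only [hH, mem_ofPred_eq, not_lt]
        rw [hB]
        have := mul_nonneg hs.2.1 (neg_nonneg.2 hAB.le)
        nlinarith
    refine le_trans (le_of_eq ?_) (measure_mono h2)
    rw [area_triangle _ _ _ hg₂]

/-- Two projected triangles on opposite sides of a projected edge. -/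
lemma two_projected {v : E3} (hv : ‖v‖ = 1) {V V' P Q : E3} (hV : V ∈ tetK) (hV' : V' ∈ tetK)
    (hP : P ∈ tetK) (hQ : Q ∈ tetK) (h : det3 (V' - V) (P - V) v * det3 (V' - V) (Q - V) v ≤ 0) :
    ENNReal.ofReal ((|det3 (V' - V) (P - V) v| + |det3 (V' - V) (Q - V) v|) / 2) ≤
      μHE[2] (tetProj v) := by
  rcases h.lt_or_eq with hlt | heq
  · have hne1 : det3 (V' - V) (P - V) v ≠ 0 := by
      intro h0; rw [h0] at hlt; simp at hlt
    have hne2 : det3 (V' - V) (Q - V) v ≠ 0 := by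
      intro h0; rw [h0] at hlt; simp at hlt
    have hg₁ : 0 < gram (proj v V' - proj v V) (proj v P - proj v V) := by
      rw [gram_triangle hv]; positivity
    have hg₂ : 0 < gram (proj v V' - proj v V) (proj v Q - proj v V) := by
      rw [gram_triangle hv]; positivity
    have := two_triangles (C := tetProj v) (lineFun v (proj v V) (proj v V'))
      (lineFun_continuous _ _ _)
      (fun s₀ s₁ => lineFun_param v _ _ _ s₀ s₁) (fun s₀ s₁ => lineFun_param v _ _ _ s₀ s₁)
      (by rw [lineFun_proj hv, lineFun_proj hv]; exact hlt)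
      (triangle_sub_tetProj hv hV hV' hP) (triangle_sub_tetProj hv hV hV' hQ) hg₁ hg₂
    rw [gram_triangle hv, gram_triangle hv, Real.sqrt_sq_eq_abs, Real.sqrt_sq_eq_abs] at this
    rw [add_div, ENNReal.ofReal_add (by positivity) (by positivity)]
    exact this
  · rcases mul_eq_zero.1 heq with h0 | h0
    · rw [h0, abs_zero, zero_add]
      exact single_triangle hv hV hV' hQ
    · rw [h0, abs_zero, add_zero]
      exact single_triangle hv hV hV' hP

/-! ### The four vertices -/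

/-- Vertices of the tetrahedron. -/
def Va : E3 := !₂[1, 0, 0]
/-- Vertices of the tetrahedron. -/
def Vb : E3 := !₂[-1, 0, 0]
/-- Vertices of the tetrahedron. -/
def Vc : E3 := !₂[0, 1, Real.sqrt 2]
/-- Vertices of the tetrahedron. -/
def Vd : E3 := !₂[0, -1, Real.sqrt 2]

lemma Va_mem : Va ∈ tetK := subset_convexHull ℝ _ (by simp [Va])
lemma Vb_mem : Vb ∈ tetK := subset_convexHull ℝ _ (by simp [Vb])
lemma Vc_mem : Vc ∈ tetK := subset_convexHull ℝ _ (by simp [Vc])
lemma Vd_mem : Vd ∈ tetK := subset_convexHull ℝ _ (by simp [Vd])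

lemma det_ab_c (v : E3) : det3 (Vb - Va) (Vc - Va) v = 2 * (Real.sqrt 2 * v 1 - v 2) := by
  simp [det3, Va, Vb, Vc]; ring
lemma det_ab_d (v : E3) : det3 (Vb - Va) (Vd - Va) v = 2 * (Real.sqrt 2 * v 1 + v 2) := by
  simp [det3, Va, Vb, Vd]; ring
lemma det_ac_d (v : E3) : det3 (Vc - Va) (Vd - Va) v = 2 * (Real.sqrt 2 * v 0 + v 2) := by
  simp [det3, Va, Vc, Vd]; linear_combination (v 1 - v 1) * sq2
lemma det_bc_d (v : E3) : det3 (Vc - Vb) (Vd - Vb) v = 2 * (Real.sqrt 2 * v 0 - v 2) := by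
  simp [det3, Vb, Vc, Vd]; linear_combination (v 1 - v 1) * sq2
lemma det_cd_a (v : E3) : det3 (Vd - Vc) (Va - Vc) v = 2 * (Real.sqrt 2 * v 0 + v 2) := by
  simp [det3, Va, Vc, Vd]; ring
lemma det_cd_b (v : E3) : det3 (Vd - Vc) (Vb - Vc) v = 2 * (Real.sqrt 2 * v 0 - v 2) := by
  simp [det3, Vb, Vc, Vd]; ring
lemma det_ab_c' (v : E3) : det3 (Vc - Va) (Vb - Va) v = 2 * (v 2 - Real.sqrt 2 * v 1) := by
  simp [det3, Va, Vb, Vc]; ring
lemma det_ac_d' (v : E3) : det3 (Vc - Va) (Vd - Va) v = 2 * (Real.sqrt 2 * v 0 + v 2) := det_ac_d v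
lemma det_bd_a (v : E3) : det3 (Vd - Vb) (Va - Vb) v = 2 * (Real.sqrt 2 * v 1 + v 2) := by
  simp [det3, Va, Vb, Vd]; ring
lemma det_bd_c (v : E3) : det3 (Vd - Vb) (Vc - Vb) v = 2 * (v 2 - Real.sqrt 2 * v 0) := by
  simp [det3, Vb, Vc, Vd]; linear_combination (v 1 - v 1) * sq2
lemma det_ad_b (v : E3) : det3 (Vd - Va) (Vb - Va) v = -(2 * (Real.sqrt 2 * v 1 + v 2)) := by
  simp [det3, Va, Vb, Vd]; ring
lemma det_ad_c (v : E3) : det3 (Vd - Va) (Vc - Va) v = -(2 * (Real.sqrt 2 * v 0 + v 2)) := by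
  simp [det3, Va, Vc, Vd]; linear_combination (v 1 - v 1) * sq2
lemma det_bc_a (v : E3) : det3 (Vc - Vb) (Va - Vb) v = 2 * (Real.sqrt 2 * v 1 - v 2) := by
  simp [det3, Va, Vb, Vc]; ring
lemma det_bc_d' (v : E3) : det3 (Vc - Vb) (Vd - Vb) v = 2 * (Real.sqrt 2 * v 0 - v 2) := det_bc_d v

lemma half_abs_two (y : ℝ) : |2 * y| / 2 = |y| := by
  rw [abs_mul]; simp

lemma half_add_abs_two (y z : ℝ) : (|2 * y| + |2 * z|) / 2 = |y| + |z| := by
  rw [abs_mul, abs_mul, abs_two]; ring

/-- The real-variable core of the lower bound for projections. -/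
lemma sqrt_two_le_of_abc {x : ℝ≥0∞} {A B C : ℝ} (hsum : A ^ 2 + (B ^ 2 + C ^ 2) / 2 = 1)
    (f1 : ENNReal.ofReal |B - A| ≤ x) (f2 : ENNReal.ofReal |B + A| ≤ x)
    (f3 : ENNReal.ofReal |C + A| ≤ x) (f4 : ENNReal.ofReal |C - A| ≤ x)
    (t1 : C ^ 2 ≤ A ^ 2 → ENNReal.ofReal (2 * |A|) ≤ x)
    (t2 : B ^ 2 ≤ A ^ 2 → ENNReal.ofReal (2 * |A|) ≤ x)
    (t3 : (A - B) * (A + C) ≤ 0 → ENNReal.ofReal |B + C| ≤ x)
    (t4 : (A + B) * (A - C) ≤ 0 → ENNReal.ofReal |B + C| ≤ x)
    (t5 : (A + B) * (A + C) ≤ 0 → ENNReal.ofReal |C - B| ≤ x)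
    (t6 : (A - B) * (A - C) ≤ 0 → ENNReal.ofReal |C - B| ≤ x) :
    ENNReal.ofReal (Real.sqrt 2) ≤ x := by
  have mono : ∀ y : ℝ, Real.sqrt 2 ≤ y → ENNReal.ofReal y ≤ x → ENNReal.ofReal (Real.sqrt 2) ≤ x :=
    fun y hy h => le_trans (ENNReal.ofReal_le_ofReal hy) h
  have ofsq : ∀ y : ℝ, 0 ≤ y → 2 ≤ y ^ 2 → Real.sqrt 2 ≤ y := fun y h0 h => Real.sqrt_le_iff.2 ⟨h0, h⟩
  by_cases h1 : 1 / 2 ≤ A ^ 2
  · have hA : Real.sqrt 2 ≤ 2 * |A| := by
      apply ofsq _ (by positivity)
      rw [mul_pow, sq_abs]; linarith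
    have : C ^ 2 ≤ A ^ 2 ∨ B ^ 2 ≤ A ^ 2 := by
      by_contra hcon
      rw [not_or, not_le, not_le] at hcon
      linarith [hcon.1, hcon.2]
    rcases this with h | h
    · exact mono _ hA (t1 h)
    · exact mono _ hA (t2 h)
  by_cases h2 : 2 ≤ (B + C) ^ 2
  · have hA : Real.sqrt 2 ≤ |B + C| := by
      apply ofsq _ (abs_nonneg _)
      rw [sq_abs]; exact h2
    have : (A - B) * (A + C) ≤ 0 ∨ (A + B) * (A - C) ≤ 0 := by
      by_contra hcon
      rw [not_or, not_le, not_le] at hcon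
      nlinarith [hcon.1, hcon.2]
    rcases this with h | h
    · exact mono _ hA (t3 h)
    · exact mono _ hA (t4 h)
  by_cases h3 : 2 ≤ (C - B) ^ 2
  · have hA : Real.sqrt 2 ≤ |C - B| := by
      apply ofsq _ (abs_nonneg _)
      rw [sq_abs]; exact h3
    have : (A + B) * (A + C) ≤ 0 ∨ (A - B) * (A - C) ≤ 0 := by
      by_contra hcon
      rw [not_or, not_le, not_le] at hcon
      nlinarith [hcon.1, hcon.2]
    rcases this with h | h
    · exact mono _ hA (t5 h)
    · exact mono _ hA (t6 h)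
  rw [not_le] at h1 h2 h3
  have hs : 0 < Real.sqrt 2 := sqrt2_pos
  have hs2 : Real.sqrt 2 ^ 2 = 2 := sq2
  have small : ∀ a : ℝ, a ^ 2 < 1 / 2 → 2 * a ^ 2 ≤ Real.sqrt 2 * |a| := by
    intro a ha
    have h2a : 2 * |a| ≤ Real.sqrt 2 := by
      apply Real.le_sqrt_of_sq_le
      rw [mul_pow, sq_abs]; linarith
    have h0 := abs_nonneg a
    have : a ^ 2 = |a| * |a| := by rw [← sq, sq_abs]
    rw [this]
    nlinarith
  have s1 := small A h1
  have s2 := small ((B + C) / 2) (by rw [div_pow]; linarith)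
  have s3 := small ((C - B) / 2) (by rw [div_pow]; linarith)
  have hSum : Real.sqrt 2 ≤ |A| + |(B + C) / 2| + |(C - B) / 2| := by
    have h22 : A ^ 2 + ((B + C) / 2) ^ 2 + ((C - B) / 2) ^ 2 = 1 := by linear_combination hsum
    have : Real.sqrt 2 * Real.sqrt 2 ≤ Real.sqrt 2 * (|A| + |(B + C) / 2| + |(C - B) / 2|) := by
      nlinarith
    exact le_of_mul_le_mul_left this hs
  have key : Real.sqrt 2 ≤ |B - A| ∨ Real.sqrt 2 ≤ |B + A| ∨ Real.sqrt 2 ≤ |C + A| ∨
      Real.sqrt 2 ≤ |C - A| := by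
    by_contra hcon
    rw [not_or, not_or, not_or, not_le, not_le, not_le, not_le] at hcon
    obtain ⟨k1, k2, k3, k4⟩ := hcon
    rw [abs_lt] at k1 k2 k3 k4
    rcases abs_cases A with ⟨e1, _⟩ | ⟨e1, _⟩ <;> rcases abs_cases ((B + C) / 2) with ⟨e2, _⟩ | ⟨e2, _⟩ <;>
      rcases abs_cases ((C - B) / 2) with ⟨e3, _⟩ | ⟨e3, _⟩ <;> rw [e1, e2, e3] at hSum <;> linarith
  rcases key with h | h | h | h
  · exact mono _ h f1
  · exact mono _ h f2
  · exact mono _ h f3
  · exact mono _ h f4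

/-- **Lower bound**: every projection of the tetrahedron has area at least `√2`. -/
theorem min_proj_ge {v : E3} (hv : ‖v‖ = 1) :
    ENNReal.ofReal (Real.sqrt 2) ≤ μHE[2] (tetProj v) := by
  have hv2 : v 0 ^ 2 + v 1 ^ 2 + v 2 ^ 2 = 1 := by
    rw [← norm_coords_sq, hv]; norm_num
  have hsum : v 2 ^ 2 + ((Real.sqrt 2 * v 1) ^ 2 + (Real.sqrt 2 * v 0) ^ 2) / 2 = 1 := by
    rw [mul_pow, mul_pow, sq2]; linarith
  refine sqrt_two_le_of_abc hsum ?_ ?_ ?_ ?_ ?_ ?_ ?_ ?_ ?_ ?_
  · have := single_triangle hv Va_mem Vb_mem Vc_mem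
    rwa [det_ab_c, half_abs_two] at this
  · have := single_triangle hv Va_mem Vb_mem Vd_mem
    rwa [det_ab_d, half_abs_two] at this
  · have := single_triangle hv Va_mem Vc_mem Vd_mem
    rwa [det_ac_d, half_abs_two] at this
  · have := single_triangle hv Vb_mem Vc_mem Vd_mem
    rwa [det_bc_d, half_abs_two] at this
  · -- the edge `cd`
    intro h
    have := two_projected hv Vc_mem Vd_mem Va_mem Vb_mem (by
      rw [det_cd_a, det_cd_b]; nlinarith)
    rw [det_cd_a, det_cd_b, half_add_abs_two] at this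
    refine le_trans (ENNReal.ofReal_le_ofReal ?_) this
    have := abs_sub (Real.sqrt 2 * v 0 + v 2) (Real.sqrt 2 * v 0 - v 2)
    have e : Real.sqrt 2 * v 0 + v 2 - (Real.sqrt 2 * v 0 - v 2) = 2 * v 2 := by ring
    rw [e, abs_mul] at this
    simpa using this
  · -- the edge `ab`
    intro h
    have := two_projected hv Va_mem Vb_mem Vc_mem Vd_mem (by
      rw [det_ab_c, det_ab_d]; nlinarith)
    rw [det_ab_c, det_ab_d, half_add_abs_two] at this
    refine le_trans (ENNReal.ofReal_le_ofReal ?_) this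
    have := abs_sub (Real.sqrt 2 * v 1 + v 2) (Real.sqrt 2 * v 1 - v 2)
    have e : Real.sqrt 2 * v 1 + v 2 - (Real.sqrt 2 * v 1 - v 2) = 2 * v 2 := by ring
    rw [e, abs_mul] at this
    simp only [abs_two] at this
    linarith
  · -- the edge `ac`
    intro h
    have := two_projected hv Va_mem Vc_mem Vb_mem Vd_mem (by
      rw [det_ab_c', det_ac_d']; nlinarith)
    rw [det_ab_c', det_ac_d', half_add_abs_two] at this
    refine le_trans (ENNReal.ofReal_le_ofReal ?_) this
    have := abs_sub (Real.sqrt 2 * v 0 + v 2) (v 2 - Real.sqrt 2 * v 1)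
    have e : Real.sqrt 2 * v 0 + v 2 - (v 2 - Real.sqrt 2 * v 1) =
      Real.sqrt 2 * v 1 + Real.sqrt 2 * v 0 := by ring
    rw [e] at this
    linarith
  · -- the edge `bd`
    intro h
    have := two_projected hv Vb_mem Vd_mem Va_mem Vc_mem (by
      rw [det_bd_a, det_bd_c]; nlinarith)
    rw [det_bd_a, det_bd_c, half_add_abs_two] at this
    refine le_trans (ENNReal.ofReal_le_ofReal ?_) this
    have := abs_sub (Real.sqrt 2 * v 1 + v 2) (v 2 - Real.sqrt 2 * v 0)
    have e : Real.sqrt 2 * v 1 + v 2 - (v 2 - Real.sqrt 2 * v 0) =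
      Real.sqrt 2 * v 1 + Real.sqrt 2 * v 0 := by ring
    rw [e] at this
    linarith
  · -- the edge `ad`
    intro h
    have := two_projected hv Va_mem Vd_mem Vb_mem Vc_mem (by
      rw [det_ad_b, det_ad_c]; nlinarith)
    rw [det_ad_b, det_ad_c, abs_neg, abs_neg, half_add_abs_two] at this
    refine le_trans (ENNReal.ofReal_le_ofReal ?_) this
    have := abs_sub (Real.sqrt 2 * v 0 + v 2) (Real.sqrt 2 * v 1 + v 2)
    have e : Real.sqrt 2 * v 0 + v 2 - (Real.sqrt 2 * v 1 + v 2) =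
      Real.sqrt 2 * v 0 - Real.sqrt 2 * v 1 := by ring
    rw [e] at this
    linarith [abs_nonneg (Real.sqrt 2 * v 0 - Real.sqrt 2 * v 1)]
  · -- the edge `bc`
    intro h
    have := two_projected hv Vb_mem Vc_mem Va_mem Vd_mem (by
      rw [det_bc_a, det_bc_d']; nlinarith)
    rw [det_bc_a, det_bc_d', half_add_abs_two] at this
    refine le_trans (ENNReal.ofReal_le_ofReal ?_) this
    have := abs_sub (Real.sqrt 2 * v 0 - v 2) (Real.sqrt 2 * v 1 - v 2)
    have e : Real.sqrt 2 * v 0 - v 2 - (Real.sqrt 2 * v 1 - v 2) =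
      Real.sqrt 2 * v 0 - Real.sqrt 2 * v 1 := by ring
    rw [e] at this
    linarith

/-- **Equality case**: some projection has area exactly `√2`. -/
theorem min_proj_eq : ∃ v : E3, ‖v‖ = 1 ∧ μHE[2] (tetProj v) = ENNReal.ofReal (Real.sqrt 2) := by
  set v : E3 := !₂[-1 / 2, 1 / 2, Real.sqrt 2 / 2] with hvdef
  have hv : ‖v‖ = 1 := by
    have h : ‖v‖ ^ 2 = 1 := by
      rw [norm_coords_sq]
      simp [hvdef]
      have := sq2
      rw [div_pow (Real.sqrt 2), this]; norm_num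
    exact (pow_eq_one_iff_of_nonneg (norm_nonneg _) (by norm_num)).1 h
  refine ⟨v, hv, ?_⟩
  have hfVc : proj v Vc = proj v Va := by
    have hsub : Vc - Va = (2 : ℝ) • v := by
      ext i; fin_cases i <;> simp [Va, Vc, hvdef] <;> ring
    have hv0 : v ≠ 0 := by
      intro h; rw [h, norm_zero] at hv; norm_num at hv
    rw [← sub_eq_zero, ← proj_sub, hsub, proj_smul, proj_self hv0, smul_zero]
  have himg : tetProj v = convexHull ℝ ({proj v Va, proj v Vb, proj v Vd} : Set E3) := by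
    have h1 : tetProj v = (projL v) '' tetK := rfl
    have h2 : tetK = convexHull ℝ ({Va, Vb, Vc, Vd} : Set E3) := rfl
    rw [h1, h2, LinearMap.image_convexHull, projL_coe, piv_eq_proj hv]
    congr 1
    simp only [image_insert_eq, image_singleton, hfVc]
    ext x
    simp only [mem_insert_iff, mem_singleton_iff]
    tauto
  have hdet : det3 (Vb - Va) (Vd - Va) v = 2 * Real.sqrt 2 := by
    rw [det_ab_d]
    simp [hvdef]
    have := sq2
    linear_combination (1 - 1) * this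
  have hg : 0 < gram (proj v Vb - proj v Va) (proj v Vd - proj v Va) := by
    rw [gram_triangle hv, hdet]
    have := sqrt2_pos
    positivity
  rw [himg, area_triangle _ _ _ hg, gram_triangle hv, hdet, Real.sqrt_sq (by positivity)]
  congr 1
  ring

end Crest.Agent.Lib.Tet
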