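import Crest.Agent.Lib.Tet.Finite
import Crest.Agent.Lib.Tet.Assemble

/-!
Any regular tetrahedron in `ℝ³` is similar to the standard one; transfer of the covers and of the
lower bound for projections.
-/

set_option autoImplicit false

open MeasureTheory Set
open scoped ENNReal Pointwise

noncomputable section

namespace Crest.Agent.Lib.Tet

/-- How the area behaves under a similarity. -/
lemma area_sim {r : ℝ} (hr : 0 < r) {Q : E3 → E3} (hQ : Isometry Q) (e : E3) (X : Set E3) :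
    μHE[2] ((fun x => r • Q x + e) '' X) = ENNReal.ofReal (r ^ 2) * μHE[2] X := by
  have h1 : (fun x => r • Q x + e) '' X = (fun y => y + e) '' (r • (Q '' X)) := by
    ext y
    constructor
    · rintro ⟨x, hx, rfl⟩
      exact ⟨r • Q x, smul_mem_smul_set (mem_image_of_mem _ hx), rfl⟩
    · rintro ⟨_, ⟨_, ⟨x, hx, rfl⟩, rfl⟩, rfl⟩
      exact ⟨x, hx, rfl⟩
  have htr : Isometry (fun y : E3 => y + e) := (IsometryEquiv.addRight e).isometry
  rw [h1, htr.euclideanHausdorffMeasure_image, Measure.euclideanHausdorffMeasure_smul₀ 2 hr.ne',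
    hQ.euclideanHausdorffMeasure_image]
  have h2 : ENNReal.ofReal (r ^ 2) = ((‖r‖₊ ^ 2 : NNReal) : ℝ≥0∞) := by
    rw [ENNReal.ofReal_pow hr.le]
    simp [ENNReal.ofReal, Real.toNNReal_of_nonneg hr.le, Real.nnnorm_of_nonneg hr.le]
  rw [h2, ENNReal.smul_def, smul_eq_mul]

/-- The coefficient functionals of the basis `Vb - Va`, `Vc - Va`, `Vd - Va`. -/
def coefA (x : E3) : ℝ := -(x 0 + x 2 / Real.sqrt 2) / 2
/-- The coefficient functionals of the basis `Vb - Va`, `Vc - Va`, `Vd - Va`. -/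
def coefB (x : E3) : ℝ := (x 2 / Real.sqrt 2 + x 1) / 2
/-- The coefficient functionals of the basis `Vb - Va`, `Vc - Va`, `Vd - Va`. -/
def coefC (x : E3) : ℝ := (x 2 / Real.sqrt 2 - x 1) / 2

/-- The linear map sending the basis `Vb - Va`, `Vc - Va`, `Vd - Va` to `g₁, g₂, g₃`. -/
def qLin (g₁ g₂ g₃ : E3) : E3 →ₗ[ℝ] E3 where
  toFun x := coefA x • g₁ + coefB x • g₂ + coefC x • g₃
  map_add' x y := by
    simp only [coefA, coefB, coefC, PiLp.add_apply]
    module
  map_smul' c x := by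
    simp only [coefA, coefB, coefC, PiLp.smul_apply, smul_eq_mul, RingHom.id_apply]
    module

lemma qLin_apply (g₁ g₂ g₃ x : E3) :
    qLin g₁ g₂ g₃ x = coefA x • g₁ + coefB x • g₂ + coefC x • g₃ := rfl

lemma qLin_norm {g₁ g₂ g₃ : E3} (h11 : inner ℝ g₁ g₁ = (4 : ℝ)) (h22 : inner ℝ g₂ g₂ = (4 : ℝ))
    (h33 : inner ℝ g₃ g₃ = (4 : ℝ)) (h12 : inner ℝ g₁ g₂ = (2 : ℝ)) (h13 : inner ℝ g₁ g₃ = (2 : ℝ))
    (h23 : inner ℝ g₂ g₃ = (2 : ℝ)) (x : E3) : ‖qLin g₁ g₂ g₃ x‖ = ‖x‖ := by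
  have h21 : inner ℝ g₂ g₁ = (2 : ℝ) := by rw [real_inner_comm]; exact h12
  have h31 : inner ℝ g₃ g₁ = (2 : ℝ) := by rw [real_inner_comm]; exact h13
  have h32 : inner ℝ g₃ g₂ = (2 : ℝ) := by rw [real_inner_comm]; exact h23
  have key : ‖qLin g₁ g₂ g₃ x‖ ^ 2 = ‖x‖ ^ 2 := by
    rw [← real_inner_self_eq_norm_sq (qLin g₁ g₂ g₃ x), norm_coords_sq, qLin_apply]
    simp only [inner_add_left, inner_add_right, inner_smul_left, inner_smul_right, h11, h22, h33,
      h12, h13, h23, h21, h31, h32]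
    simp only [coefA, coefB, coefC, RCLike.conj_to_real]
    set ρ := x 2 / Real.sqrt 2 with hρ
    have hρ2 : x 2 ^ 2 = 2 * ρ ^ 2 := by
      rw [hρ, div_pow, sq2]; ring
    rw [hρ2]
    ring
  exact (pow_left_inj₀ (norm_nonneg _) (norm_nonneg _) (by norm_num)).1 key

/-- The similarity carrying the standard tetrahedron onto a given regular tetrahedron. -/
theorem exists_similarity (w : Fin 4 → E3) {ℓ : ℝ} (hℓ : 0 < ℓ)
    (hw : ∀ i j, i ≠ j → dist (w i) (w j) = ℓ) :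
    ∃ (Q : E3 ≃ₗᵢ[ℝ] E3) (d : E3),
      (fun x => (ℓ / 2) • Q x + d) '' tetK = convexHull ℝ (Set.range w) := by
  -- the rescaled edge vectors
  set g : Fin 4 → E3 := fun i => (2 / ℓ) • (w i - w 0) with hg
  have hne : ℓ ≠ 0 := hℓ.ne'
  have hdist : ∀ i j, i ≠ j → ‖w i - w j‖ = ℓ := fun i j h => by
    rw [← dist_eq_norm]; exact hw i j h
  have hdiag : ∀ i, i ≠ 0 → inner ℝ (g i) (g i) = (4 : ℝ) := by
    intro i hi
    rw [real_inner_self_eq_norm_sq, hg]
    simp only [norm_smul, hdist i 0 hi, Real.norm_eq_abs, abs_of_pos (div_pos two_pos hℓ)]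
    field_simp
    norm_num
  have hoff : ∀ i j, i ≠ 0 → j ≠ 0 → i ≠ j → inner ℝ (g i) (g j) = (2 : ℝ) := by
    intro i j hi hj hij
    have h1 : ‖g i - g j‖ ^ 2 = 4 := by
      have : g i - g j = (2 / ℓ) • (w i - w j) := by
        simp only [hg]
        module
      rw [this, norm_smul, hdist i j hij, Real.norm_eq_abs, abs_of_pos (div_pos two_pos hℓ)]
      field_simp
      norm_num
    rw [@norm_sub_sq_real, ← real_inner_self_eq_norm_sq, ← real_inner_self_eq_norm_sq,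
      hdiag i hi, hdiag j hj] at h1
    linarith
  have hnorm := qLin_norm (hdiag 1 (by decide)) (hdiag 2 (by decide)) (hdiag 3 (by decide))
    (hoff 1 2 (by decide) (by decide) (by decide)) (hoff 1 3 (by decide) (by decide) (by decide))
    (hoff 2 3 (by decide) (by decide) (by decide))
  set Q₀ : E3 →ₗᵢ[ℝ] E3 := ⟨qLin (g 1) (g 2) (g 3), hnorm⟩ with hQ₀
  set Q : E3 ≃ₗᵢ[ℝ] E3 := Q₀.toLinearIsometryEquiv rfl with hQ
  have hQa : ∀ x, Q x = qLin (g 1) (g 2) (g 3) x := fun x => rfl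
  set d : E3 := w 0 - (ℓ / 2) • Q Va with hd
  refine ⟨Q, d, ?_⟩
  -- the values on the vertices
  have hs := sqrt2_pos
  have h2ne : Real.sqrt 2 ≠ 0 := hs.ne'
  have hV : ∀ V : E3, (ℓ / 2) • Q V + d = w 0 + (ℓ / 2) • qLin (g 1) (g 2) (g 3) (V - Va) := by
    intro V
    rw [hd, map_sub, smul_sub, hQa, hQa]
    abel
  have hscale : ∀ i : Fin 4, w 0 + (ℓ / 2) • g i = w i := by
    intro i
    simp only [hg, smul_smul]
    have : ℓ / 2 * (2 / ℓ) = 1 := by field_simp
    rw [this, one_smul]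
    abel
  have hTa : (ℓ / 2) • Q Va + d = w 0 := by
    rw [hd]; abel
  have hTb : (ℓ / 2) • Q Vb + d = w 1 := by
    rw [hV]
    have : qLin (g 1) (g 2) (g 3) (Vb - Va) = g 1 := by
      rw [qLin_apply]
      simp [coefA, coefB, coefC, Va, Vb]
    rw [this, hscale]
  have hTc : (ℓ / 2) • Q Vc + d = w 2 := by
    rw [hV]
    have : qLin (g 1) (g 2) (g 3) (Vc - Va) = g 2 := by
      rw [qLin_apply]
      have e1 : coefA (Vc - Va) = 0 := by
        simp [coefA, Va, Vc, h2ne]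
      have e2 : coefB (Vc - Va) = 1 := by
        simp [coefB, Va, Vc, h2ne]
      have e3 : coefC (Vc - Va) = 0 := by
        simp [coefC, Va, Vc, h2ne]
      rw [e1, e2, e3]; simp
    rw [this, hscale]
  have hTd : (ℓ / 2) • Q Vd + d = w 3 := by
    rw [hV]
    have : qLin (g 1) (g 2) (g 3) (Vd - Va) = g 3 := by
      rw [qLin_apply]
      have e1 : coefA (Vd - Va) = 0 := by
        simp [coefA, Va, Vd, h2ne]
      have e2 : coefB (Vd - Va) = 0 := by
        simp [coefB, Va, Vd, h2ne]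
      have e3 : coefC (Vd - Va) = 1 := by
        simp [coefC, Va, Vd, h2ne]
      rw [e1, e2, e3]; simp
    rw [this, hscale]
  -- affine image of a convex hull
  let f : E3 →ᵃ[ℝ] E3 := ((ℓ / 2) • (Q.toLinearEquiv : E3 →ₗ[ℝ] E3)).toAffineMap +
    AffineMap.const ℝ E3 d
  have hf : (f : E3 → E3) = fun x => (ℓ / 2) • Q x + d := by
    funext x
    simp [f]
  have h2 : tetK = convexHull ℝ ({Va, Vb, Vc, Vd} : Set E3) := rfl
  rw [← hf, h2, AffineMap.image_convexHull, hf]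
  congr 1
  simp only [image_insert_eq, image_singleton, hTa, hTb, hTc, hTd]
  ext x
  simp only [mem_insert_iff, mem_singleton_iff, mem_range]
  constructor
  · rintro (rfl | rfl | rfl | rfl)
    exacts [⟨0, rfl⟩, ⟨1, rfl⟩, ⟨2, rfl⟩, ⟨3, rfl⟩]
  · rintro ⟨i, rfl⟩
    fin_cases i <;> simp

/-- A projection of the image of a set under a similarity. -/
lemma proj_sim_image (Q : E3 ≃ₗᵢ[ℝ] E3) (d : E3) (ρ : ℝ) (v : E3) (S : Set E3) :
    (fun y => y - inner ℝ y v • v) '' ((fun x => ρ • Q x + d) '' S) =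
      (fun y => ρ • Q y + (d - inner ℝ d v • v)) ''
        ((fun y => y - inner ℝ y (Q.symm v) • (Q.symm v)) '' S) := by
  rw [image_image, image_image]
  apply image_congr
  intro x _
  have h1 : inner ℝ x (Q.symm v) = (inner ℝ (Q x) v : ℝ) := by
    have := Q.inner_map_map x (Q.symm v)
    rw [Q.apply_symm_apply] at this
    exact this.symm
  have h2 : Q (x - inner ℝ x (Q.symm v) • Q.symm v) = Q x - inner ℝ (Q x) v • v := by
    rw [map_sub, map_smul, Q.apply_symm_apply, h1]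
  rw [h2]
  simp only [inner_add_left, inner_smul_left, RCLike.conj_to_real]
  module

/-- Lower bound for projections of a similar copy of the tetrahedron, with finiteness. -/
theorem proj_sim_lower (Q : E3 ≃ₗᵢ[ℝ] E3) (d : E3) {ρ : ℝ} (hρ : 0 < ρ) {v : E3} (hv : ‖v‖ = 1) :
    ρ ^ 2 * Real.sqrt 2 ≤
      (μHE[2] ((fun y => y - inner ℝ y v • v) '' ((fun x => ρ • Q x + d) '' tetK))).toReal := by
  have hv₀ : ‖Q.symm v‖ = 1 := by rw [Q.symm.norm_map]; exact hv
  rw [proj_sim_image, area_sim hρ Q.isometry]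
  have hb : Bornology.IsBounded tetK :=
    isBounded_convexHull.2 ((Set.toFinite _).isBounded)
  have hfin := (proj_image_lt_top hv₀ hb).ne
  rw [ENNReal.toReal_mul, ENNReal.toReal_ofReal (by positivity)]
  apply mul_le_mul_of_nonneg_left _ (by positivity)
  exact (ENNReal.ofReal_le_iff_le_toReal hfin).1 (min_proj_ge hv₀)

/-- The transfer of the triangle cover to a similar copy of the tetrahedron. -/
theorem triangle_cover_sim (Q : E3 ≃ₗᵢ[ℝ] E3) (d : E3) {ρ : ℝ} (hρ : 0 < ρ) :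
    ∃ (N : ℕ) (u p q r : Fin N → E3),
      (∀ i, ‖u i‖ = 1) ∧
      (∀ i, inner ℝ (p i) (u i) = (0 : ℝ) ∧ inner ℝ (q i) (u i) = (0 : ℝ) ∧
        inner ℝ (r i) (u i) = (0 : ℝ)) ∧
      ((fun x => ρ • Q x + d) '' tetK) ⊆
        ⋃ i, {x : E3 | ∃ b ∈ convexHull ℝ {p i, q i, r i}, ∃ t : ℝ, x = b + t • u i} ∧
      (∑ i, (μHE[2] (convexHull ℝ ({p i, q i, r i} : Set E3))).toReal) ≤
        ρ ^ 2 * (Real.sqrt 2 * (1 / 2 - 1 / 10 ^ 10)) := by
  obtain ⟨u, p, q, r, hu, hperp, hcov, hA⟩ :=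
    exists_cover_exact (ε := 1 / 2000) (by norm_num) le_rfl
  have hs := sqrt2_pos
  -- the affine maps
  set κ : Fin (2 * ⌈(2 : ℝ) / (1 / 2000) ^ 2⌉₊) → ℝ := fun i => inner ℝ d (Q (u i)) with hκ
  set S : Fin (2 * ⌈(2 : ℝ) / (1 / 2000) ^ 2⌉₊) → E3 → E3 :=
    fun i x => ρ • Q x + (d - κ i • Q (u i)) with hS
  have hhull : ∀ i, convexHull ℝ ({S i (p i), S i (q i), S i (r i)} : Set E3) =
      S i '' convexHull ℝ ({p i, q i, r i} : Set E3) := by
    intro i
    let f : E3 →ᵃ[ℝ] E3 := (ρ • (Q.toLinearEquiv : E3 →ₗ[ℝ] E3)).toAffineMap +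
      AffineMap.const ℝ E3 (d - κ i • Q (u i))
    have hf : (f : E3 → E3) = S i := by
      funext x
      simp [f, hS]
    rw [← hf, AffineMap.image_convexHull]
    simp only [image_insert_eq, image_singleton]
  have hperp' : ∀ i (x : E3), inner ℝ x (u i) = (0 : ℝ) → inner ℝ (S i x) (Q (u i)) = (0 : ℝ) := by
    intro i x hx
    have hn : inner ℝ (Q (u i)) (Q (u i)) = (1 : ℝ) := by
      rw [real_inner_self_eq_norm_sq, Q.norm_map, hu]; norm_num
    simp only [hS, inner_add_left, inner_sub_left, inner_smul_left, RCLike.conj_to_real, hn,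
      Q.inner_map_map, hx, hκ]
    ring
  refine ⟨_, fun i => Q (u i), fun i => S i (p i), fun i => S i (q i), fun i => S i (r i),
    fun i => by rw [Q.norm_map]; exact hu i,
    fun i => ⟨hperp' i _ (hperp i).1, hperp' i _ (hperp i).2.1, hperp' i _ (hperp i).2.2⟩, ?_, ?_⟩
  · rintro _ ⟨x, hx, rfl⟩
    obtain ⟨_, ⟨i, rfl⟩, hxi⟩ := hcov hx
    obtain ⟨b, hb, t, rfl⟩ := hxi
    refine mem_iUnion.2 ⟨i, S i b, ?_, ρ * t + κ i, ?_⟩
    · show S i b ∈ convexHull ℝ ({S i (p i), S i (q i), S i (r i)} : Set E3)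
      rw [hhull]
      exact mem_image_of_mem _ hb
    · simp only [hS, map_add, map_smul, smul_add, add_smul, smul_smul]
      abel
  · have hareas : ∀ i, (μHE[2] (convexHull ℝ ({S i (p i), S i (q i), S i (r i)} : Set E3))).toReal
        = ρ ^ 2 * (μHE[2] (convexHull ℝ ({p i, q i, r i} : Set E3))).toReal := by
      intro i
      rw [hhull, area_sim hρ Q.isometry, ENNReal.toReal_mul, ENNReal.toReal_ofReal (by positivity)]
    have hsum : (∑ i, (μHE[2] (convexHull ℝ ({S i (p i), S i (q i), S i (r i)} : Set E3))).toReal) =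
        ρ ^ 2 * ∑ i, (μHE[2] (convexHull ℝ ({p i, q i, r i} : Set E3))).toReal := by
      rw [Finset.mul_sum]
      exact Finset.sum_congr rfl fun i _ => hareas i
    rw [hsum]
    apply mul_le_mul_of_nonneg_left _ (by positivity)
    have h1 := (abs_le.1 hA).2
    have h2 : (∑ i, (μHE[2] (convexHull ℝ ({p i, q i, r i} : Set E3))).toReal) / Real.sqrt 2 ≤
        1 / 2 - 1 / 10 ^ 10 := by
      norm_num at h1 ⊢
      linarith
    rw [div_le_iff₀ hs] at h2
    linarith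

end Crest.Agent.Lib.Tet
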