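import Crest.Agent.Lib.Tet.Sim

/-!
Cutting a triangle into thin parallelograms, and thickening a triangle to a relatively open set.
-/

set_option autoImplicit false

open MeasureTheory Set
open scoped ENNReal Topology

noncomputable section

namespace Crest.Agent.Lib.Tet

lemma gram_smul_smul (α β : ℝ) (a b : E3) :
    gram (α • a) (β • b) = (α * β) ^ 2 * gram a b := by
  simp only [gram, norm_smul, inner_smul_left, inner_smul_right, RCLike.conj_to_real,
    Real.norm_eq_abs, mul_pow, sq_abs]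
  ring

/-- A degenerate parallelogram has no area. -/
lemma area_parallelogram_degenerate (c a b : E3) (hg : gram a b = 0) :
    μHE[2] {x : E3 | ∃ s ∈ Icc (0 : ℝ) 1, ∃ t ∈ Icc (0 : ℝ) 1, x = c + s • a + t • b} = 0 := by
  -- everything lies on one line
  have hline : ∃ (e : E3) (α β : ℝ), a = α • e ∧ b = β • e := by
    by_cases ha : a = 0
    · exact ⟨b, 0, 1, by simp [ha], by simp⟩
    · refine ⟨a, 1, inner ℝ a b / ‖a‖ ^ 2, by simp, ?_⟩
      have hn : ‖a‖ ^ 2 ≠ 0 := by
        have := norm_pos_iff.2 ha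
        positivity
      have h0 : ‖b - (inner ℝ a b / ‖a‖ ^ 2) • a‖ ^ 2 = 0 := by
        rw [@norm_sub_sq_real, norm_smul, inner_smul_right, Real.norm_eq_abs, mul_pow, sq_abs]
        have : gram a b = 0 := hg
        unfold gram at this
        have hc : (inner ℝ a b : ℝ) ^ 2 = ‖a‖ ^ 2 * ‖b‖ ^ 2 := by linarith
        have hc' : (inner ℝ b a : ℝ) ^ 2 = ‖a‖ ^ 2 * ‖b‖ ^ 2 := by
          rw [real_inner_comm]; exact hc
        rw [real_inner_comm]
        field_simp
        rw [hc']
        ring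
      have h1 : b - (inner ℝ a b / ‖a‖ ^ 2) • a = 0 := by
        have := pow_eq_zero_iff (n := 2) (by norm_num) |>.1 h0
        exact norm_eq_zero.1 this
      exact sub_eq_zero.1 h1
  obtain ⟨e, α, β, rfl, rfl⟩ := hline
  have hsub : {x : E3 | ∃ s ∈ Icc (0 : ℝ) 1, ∃ t ∈ Icc (0 : ℝ) 1,
      x = c + s • (α • e) + t • (β • e)} ⊆ range (fun r : ℝ => c + r • e) := by
    rintro _ ⟨s, _, t, _, rfl⟩
    exact ⟨s * α + t * β, by simp only [add_smul, mul_smul]; abel⟩
  have hlip : LipschitzWith ‖e‖₊ (fun r : ℝ => c + r • e) := by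
    refine LipschitzWith.of_dist_le_mul fun r r' => ?_
    rw [dist_eq_norm, dist_eq_norm]
    have : c + r • e - (c + r' • e) = (r - r') • e := by module
    rw [this, norm_smul, mul_comm]
    rfl
  have hdim : dimH (range (fun r : ℝ => c + r • e)) < ((2 : NNReal) : ℝ≥0∞) := by
    refine lt_of_le_of_lt hlip.dimH_range_le ?_
    rw [Real.dimH_univ]
    norm_num
  have h0 := hausdorffMeasure_of_dimH_lt hdim
  rw [Measure.euclideanHausdorffMeasure_def, Measure.smul_apply]
  have h1 : (μH[((2 : ℕ) : ℝ)] : Measure E3) (range (fun r : ℝ => c + r • e)) = 0 := by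
    simpa using h0
  have h2 := measure_mono_null hsub h1
  rw [h2, smul_zero]

/-- The area of an arbitrary parallelogram is at most `√gram`. -/
lemma area_parallelogram_le (c a b : E3) :
    μHE[2] {x : E3 | ∃ s ∈ Icc (0 : ℝ) 1, ∃ t ∈ Icc (0 : ℝ) 1, x = c + s • a + t • b} ≤
      ENNReal.ofReal (Real.sqrt (gram a b)) := by
  rcases (gram_nonneg a b).lt_or_eq with h | h
  · exact (area_parallelogram c a b h).le
  · rw [area_parallelogram_degenerate c a b h.symm]
    exact bot_le

lemma toReal_parallelogram_le (c a b : E3) :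
    (μHE[2] {x : E3 | ∃ s ∈ Icc (0 : ℝ) 1, ∃ t ∈ Icc (0 : ℝ) 1, x = c + s • a + t • b}).toReal ≤
      Real.sqrt (gram a b) := by
  have := ENNReal.toReal_mono ENNReal.ofReal_ne_top (area_parallelogram_le c a b)
  rwa [ENNReal.toReal_ofReal (Real.sqrt_nonneg _)] at this

/-- The area of an arbitrary triangle is at least half the root of the Gram determinant. -/
lemma triangle_area_ge (p q r : E3) :
    Real.sqrt (gram (q - p) (r - p)) / 2 ≤ (μHE[2] (convexHull ℝ ({p, q, r} : Set E3))).toReal := by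
  rcases (gram_nonneg (q - p) (r - p)).lt_or_eq with h | h
  · rw [area_triangle p q r h, ENNReal.toReal_ofReal (by positivity)]
  · rw [← h]
    simp

/-- The corner of the `k`-th strip. -/
def stripC (P Q : E3) (m k : ℕ) : E3 := P + ((k : ℝ) / m) • (Q - P)
/-- The short side of each strip. -/
def stripA (P Q : E3) (m : ℕ) : E3 := (1 / (m : ℝ)) • (Q - P)
/-- The long side of the `k`-th strip. -/
def stripB (P R : E3) (m k : ℕ) : E3 := (1 - (k : ℝ) / m) • (R - P)

/-- A triangle is the union of thin strips. -/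
lemma strip_cover (P Q R : E3) {m : ℕ} (hm : 0 < m) {x : E3}
    (hx : x ∈ convexHull ℝ ({P, Q, R} : Set E3)) :
    ∃ k : Fin m, ∃ s ∈ Icc (0 : ℝ) 1, ∃ t ∈ Icc (0 : ℝ) 1,
      x = stripC P Q m k + s • stripA P Q m + t • stripB P R m k := by
  rw [convexHull_triangle_eq] at hx
  obtain ⟨σ, ⟨hα, hβ, hαβ⟩, rfl⟩ := hx
  have hmR : (0 : ℝ) < m := by exact_mod_cast hm
  set α := σ 0 with hαdef
  set β := σ 1 with hβdef
  -- choice of the strip
  have hex : ∃ k : ℕ, k < m ∧ (k : ℝ) ≤ α * m ∧ α * m ≤ k + 1 := by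
    by_cases hα1 : α < 1
    · refine ⟨⌊α * m⌋₊, ?_, Nat.floor_le (by positivity), (Nat.lt_floor_add_one _).le⟩
      rw [Nat.floor_lt (by positivity)]
      nlinarith
    · have hα2 : α = 1 := by linarith [not_lt.1 hα1]
      refine ⟨m - 1, by omega, ?_, ?_⟩
      · rw [hα2, one_mul]
        exact_mod_cast Nat.sub_le m 1
      · rw [hα2, one_mul]
        have : ((m - 1 : ℕ) : ℝ) = (m : ℝ) - 1 := by
          rw [Nat.cast_sub hm]; simp
        rw [this]; linarith
  obtain ⟨k, hkm, hk1, hk2⟩ := hex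
  have hkmR : (k : ℝ) + 1 ≤ m := by exact_mod_cast hkm
  have hd : 0 < 1 - (k : ℝ) / m := by
    rw [sub_pos, div_lt_one hmR]; linarith
  have hkα : (k : ℝ) / m ≤ α := by
    rw [div_le_iff₀ hmR]; exact hk1
  refine ⟨⟨k, hkm⟩, α * m - k, ⟨by linarith, by linarith⟩, β / (1 - (k : ℝ) / m), ⟨?_, ?_⟩, ?_⟩
  · positivity
  · rw [div_le_one hd]; linarith
  · simp only [stripC, stripA, stripB, smul_smul]
    have h1 : (α * m - k) * (1 / (m : ℝ)) = α - (k : ℝ) / m := by
      field_simp
    have h2 : β / (1 - (k : ℝ) / m) * (1 - (k : ℝ) / m) = β := div_mul_cancel₀ _ hd.ne'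
    rw [h1, h2]
    module

lemma sum_range_cast (m : ℕ) : ∑ k ∈ Finset.range m, (k : ℝ) = (m : ℝ) * (m - 1) / 2 := by
  induction m with
  | zero => simp
  | succ n ih =>
    rw [Finset.sum_range_succ, ih]
    push_cast
    ring

/-- The total area of the strips. -/
lemma strip_area_sum (P Q R : E3) {m : ℕ} (hm : 0 < m) :
    ∑ k : Fin m, Real.sqrt (gram (stripA P Q m) (stripB P R m k)) =
      (1 + 1 / (m : ℝ)) * (Real.sqrt (gram (Q - P) (R - P)) / 2) := by
  have hmR : (0 : ℝ) < m := by exact_mod_cast hm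
  have hterm : ∀ k : Fin m, Real.sqrt (gram (stripA P Q m) (stripB P R m k)) =
      (1 / (m : ℝ)) * (1 - ((k : ℕ) : ℝ) / m) * Real.sqrt (gram (Q - P) (R - P)) := by
    intro k
    have hk : ((k : ℕ) : ℝ) + 1 ≤ m := by exact_mod_cast k.2
    have hd : 0 ≤ 1 - ((k : ℕ) : ℝ) / m := by
      rw [sub_nonneg, div_le_one hmR]; linarith
    rw [stripA, stripB, gram_smul_smul, Real.sqrt_mul (by positivity), Real.sqrt_sq (by positivity)]
  rw [Finset.sum_congr rfl (fun k _ => hterm k), ← Finset.sum_mul,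
    Fin.sum_univ_eq_sum_range (fun k : ℕ => (1 / (m : ℝ)) * (1 - (k : ℝ) / m)) m,
    ← Finset.mul_sum, Finset.sum_sub_distrib, ← Finset.sum_div, sum_range_cast]
  simp only [Finset.sum_const, Finset.card_range, nsmul_eq_mul, mul_one]
  field_simp
  ring

/-- Two vectors of the plane give a plane vector. -/
lemma inner_combo_zero {x y u : E3} (hx : inner ℝ x u = (0 : ℝ)) (hy : inner ℝ y u = (0 : ℝ))
    (a b : ℝ) : inner ℝ (a • x + b • y) u = (0 : ℝ) := by
  simp [inner_add_left, inner_smul_left, hx, hy]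

lemma inner_sub_zero {x y u : E3} (hx : inner ℝ x u = (0 : ℝ)) (hy : inner ℝ y u = (0 : ℝ)) :
    inner ℝ (x - y) u = (0 : ℝ) := by
  simp [inner_sub_left, hx, hy]

/-- **Relatively open bases**: the triangle has neighbourhoods in its plane, bounded and relatively
open, of area arbitrarily close to its own. -/
theorem exists_open_base {u p q r : E3} (hp : inner ℝ p u = (0 : ℝ)) (hq : inner ℝ q u = (0 : ℝ))
    (hr : inner ℝ r u = (0 : ℝ)) (hu : ‖u‖ = 1) {η : ℝ} (hη : 0 < η) :
    ∃ B : Set E3, Bornology.IsBounded B ∧ (∃ O : Set E3, IsOpen O ∧ B = O ∩ {x | inner ℝ x u = (0 : ℝ)}) ∧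
      convexHull ℝ ({p, q, r} : Set E3) ⊆ B ∧
      (μHE[2] B).toReal ≤ (μHE[2] (convexHull ℝ ({p, q, r} : Set E3))).toReal + η := by
  set T : Set E3 := convexHull ℝ ({p, q, r} : Set E3) with hT
  set Pl : Set E3 := {x | inner ℝ x u = (0 : ℝ)} with hPl
  have hTc : IsCompact T := (Set.toFinite ({p, q, r} : Set E3)).isCompact_convexHull (𝕜 := ℝ)
  have hPlc : IsClosed Pl := isClosed_eq (continuous_id.inner continuous_const) continuous_const
  have hsubP : T ⊆ Pl := by
    apply convexHull_min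
    · rintro x (rfl | rfl | rfl)
      exacts [hp, hq, hr]
    · intro x hx y hy a b _ _ _
      simp only [hPl, mem_ofPred_eq] at hx hy ⊢
      exact inner_combo_zero hx hy a b
  -- bounded subsets of the plane have finite area
  have hfin : ∀ S : Set E3, Bornology.IsBounded S → μHE[2] (S ∩ Pl) < ⊤ := by
    intro S hS
    have h1 : (fun y => y - inner ℝ y u • u) '' (S ∩ Pl) = S ∩ Pl := by
      ext x
      constructor
      · rintro ⟨y, hy, rfl⟩
        have : inner ℝ y u = (0 : ℝ) := hy.2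
        show y - inner ℝ y u • u ∈ S ∩ Pl
        rw [this]; simpa using hy
      · intro hx
        have : inner ℝ x u = (0 : ℝ) := hx.2
        exact ⟨x, hx, by show x - inner ℝ x u • u = x; rw [this]; simp⟩
    rw [← h1]
    exact proj_image_lt_top hu (hS.subset inter_subset_left)
  set ν : Measure E3 := (μHE[2] : Measure E3).restrict Pl with hν
  have hνopen : ∀ r : ℝ, ν (Metric.thickening r T) = μHE[2] (Metric.thickening r T ∩ Pl) := by
    intro r
    exact Measure.restrict_apply Metric.isOpen_thickening.measurableSet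
  have hνT : ν T = μHE[2] T := by
    rw [hν, Measure.restrict_apply' hPlc.measurableSet, inter_eq_left.2 hsubP]
  have hbdd : Bornology.IsBounded T := hTc.isBounded
  have hTfin : μHE[2] T ≠ ⊤ := by
    have := hfin T hbdd
    rw [inter_eq_left.2 hsubP] at this
    exact this.ne
  have htend := tendsto_measure_thickening_of_isClosed (μ := ν) (s := T)
    ⟨1, one_pos, by
      rw [hνopen]
      exact (hfin _ hbdd.thickening).ne⟩ hTc.isClosed
  rw [hνT] at htend
  have hlt : μHE[2] T < μHE[2] T + ENNReal.ofReal η :=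
    ENNReal.lt_add_right hTfin (by simpa using hη)
  have hev := (htend.eventually (gt_mem_nhds hlt)).and (self_mem_nhdsWithin)
  obtain ⟨ρ, hρ1, hρ0⟩ := hev.exists
  have hρ0' : 0 < ρ := hρ0
  refine ⟨Metric.thickening ρ T ∩ Pl, hbdd.thickening.subset inter_subset_left,
    ⟨_, Metric.isOpen_thickening, rfl⟩, subset_inter (Metric.self_subset_thickening hρ0' T) hsubP, ?_⟩
  rw [hνopen] at hρ1
  have h2 := ENNReal.toReal_mono (by simpa using hTfin) hρ1.le
  rw [ENNReal.toReal_add hTfin ENNReal.ofReal_ne_top, ENNReal.toReal_ofReal hη.le] at h2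
  exact h2

end Crest.Agent.Lib.Tet
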